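import Vale.Agent.P267.H62.LocFin

/-! P267, package D-LOCFIN (helper62): factorisation of a section along the curves of its divisor. -/

open Set Filter Topology Metric
open scoped Manifold ContDiff

namespace Vale.Agent.P267.H62

variable {E : Type*} [NormedAddCommGroup E] [NormedSpace ℂ E]
  {M : Type*} [TopologicalSpace M] [ChartedSpace E M]

section local_

variable [IsManifold 𝓘(ℂ, E) 1 M] {ι : Type*}

omit [IsManifold 𝓘(ℂ, E) 1 M] in
/-- a holomorphic function along a line is analytic -/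
theorem HolNear.analyticAt_line {φ : OpenPartialHomeomorph M (ℂ × ℂ)} (hφ : HChart E φ) {s : M → ℂ}
    {p : M} (hp : p ∈ φ.source) (hφp : φ p = 0) (hs : HolNear E s p) :
    AnalyticAt ℂ (fun w : ℂ => s (φ.symm (0, w))) 0 := by
  have h1 := hs.comp_symm hφ hp
  rw [hφp] at h1
  have hc : Continuous fun t : ℂ => ((0 : ℂ), t) := by fun_prop
  rw [Complex.analyticAt_iff_eventually_differentiableAt]
  filter_upwards [(hc.tendsto' 0 0 rfl).eventually h1] with t ht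
  exact DifferentiableAt.comp (g := fun y => s (φ.symm y)) t ht (by fun_prop)

/-- **Local factorisation**, with the order on a line as induction parameter. -/
theorem exists_factor_aux (hE : Module.finrank ℂ E = 2) {p : M}
    {φ : OpenPartialHomeomorph M (ℂ × ℂ)} (hφ : HChart E φ) (hp : p ∈ φ.source) (hφp : φ p = 0)
    {S : Finset ι} {C : ι → Set M} {l : ι → M → ℂ} (hl : ∀ i ∈ S, Defines E (l i) (C i) p) (n : ℕ) :
    ∀ s : M → ℂ, HolNear E s p → analyticOrderAt (fun w : ℂ => s (φ.symm (0, w))) 0 = n →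
      (∀ᶠ x in 𝓝 p, s x = 0 → ∃ i ∈ S, x ∈ C i) →
      ∃ (m : ι → ℕ) (u : M → ℂ), HolNear E u p ∧ u p ≠ 0 ∧
        ∀ᶠ x in 𝓝 p, s x = u x * ∏ i ∈ S, l i x ^ m i := by
  classical
  induction n using Nat.strong_induction_on with
  | _ n ih =>
  intro s hs hord hzero
  by_cases hsp : s p = 0
  swap
  · exact ⟨fun _ => 0, s, hs, hsp, Eventually.of_forall fun x => by simp⟩
  -- some curve is contained in the zero set
  obtain ⟨i, hi, hCi⟩ : ∃ i ∈ S, ∀ᶠ x in 𝓝 p, x ∈ C i → s x = 0 := by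
    by_contra hcon
    push Not at hcon
    have h1 : ∀ i ∈ S, ∀ᶠ x in 𝓝[≠] p, x ∈ C i → s x ≠ 0 := fun i hi =>
      (curve_dichotomy hE (hl i hi) hs).resolve_left
        fun h => hcon i hi (h.mono fun x hx hx2 => hx2.2 (hx hx2.1))
    have h2 : ∀ᶠ x in 𝓝[≠] p, ∀ i ∈ S, x ∈ C i → s x ≠ 0 := (Finset.eventually_all S).2 h1
    refine frequently_zero hE hs hsp ?_
    filter_upwards [h2, Eventually.filter_mono nhdsWithin_le_nhds hzero] with x hx1 hx2 hx3
    obtain ⟨j, hj, hxj⟩ := hx2 hx3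
    exact hx1 j hj hxj hx3
  obtain ⟨s', hs', hss'⟩ := exists_div hE (hl i hi).1 hs (by
    filter_upwards [hCi, (hl i hi).2] with x h1 h2 h3
    exact h1 (h2.2 h3))
  -- orders
  have ha := hs.analyticAt_line hφ hp hφp
  have ha' := hs'.analyticAt_line hφ hp hφp
  have hli := (hl i hi).1.1.analyticAt_line hφ hp hφp
  have hc : Continuous fun t : ℂ => ((0 : ℂ), t) := by fun_prop
  have hev : (fun w : ℂ => s (φ.symm (0, w))) =ᶠ[𝓝 0]
      (fun w : ℂ => l i (φ.symm (0, w))) * fun w : ℂ => s' (φ.symm (0, w)) := by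
    have h1 := (eventually_chart (φ := φ) hp).2 hss'
    rw [hφp] at h1
    filter_upwards [(hc.tendsto' 0 0 rfl).eventually h1] with t ht
    exact ht
  rw [analyticOrderAt_congr hev, analyticOrderAt_mul hli ha'] at hord
  have hl1 : analyticOrderAt (fun w : ℂ => l i (φ.symm (0, w))) 0 ≠ 0 := by
    rw [analyticOrderAt_ne_zero]
    refine ⟨hli, ?_⟩
    have : φ.symm (0, 0) = p := by
      change φ.symm 0 = p
      rw [← hφp, φ.left_inv hp]
    rw [this]
    exact (hl i hi).1.2.1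
  obtain ⟨a, ha1⟩ : ∃ a : ℕ, analyticOrderAt (fun w : ℂ => l i (φ.symm (0, w))) 0 = a := by
    refine ⟨_, (ENat.natCast_toNat ?_).symm⟩
    intro h
    rw [h, top_add] at hord
    exact ENat.natCast_ne_top n hord.symm
  obtain ⟨b, hb1⟩ : ∃ b : ℕ, analyticOrderAt (fun w : ℂ => s' (φ.symm (0, w))) 0 = b := by
    refine ⟨_, (ENat.natCast_toNat ?_).symm⟩
    intro h
    rw [h, add_top] at hord
    exact ENat.natCast_ne_top n hord.symm
  rw [ha1, hb1] at hord
  rw [ha1] at hl1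
  have hab : a + b = n := by exact_mod_cast hord
  have ha0 : a ≠ 0 := by exact_mod_cast hl1
  obtain ⟨m, u, hu, hup, hfac⟩ := ih b (by omega) s' hs' hb1 (by
    filter_upwards [hzero, hss'] with x h1 h2 h3
    exact h1 (by rw [h2, h3, mul_zero]))
  refine ⟨fun j => if j = i then m j + 1 else m j, u, hu, hup, ?_⟩
  filter_upwards [hss', hfac] with x h1 h2
  rw [h1, h2]
  have h3 : ∏ j ∈ S, l j x ^ (if j = i then m j + 1 else m j) =
      (∏ j ∈ S, l j x ^ m j) * l i x := by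
    have h4 : ∀ j ∈ S, l j x ^ (if j = i then m j + 1 else m j) =
        l j x ^ m j * (if j = i then l i x else 1) := by
      intro j _
      split_ifs with h
      · rw [h, pow_succ]
      · rw [mul_one]
    rw [Finset.prod_congr rfl h4, Finset.prod_mul_distrib, Finset.prod_ite_eq' S i]
    simp [hi]
  rw [h3]
  ring

/-- **(b) Local factorisation.** -/
theorem exists_factor (hE : Module.finrank ℂ E = 2) {p : M} {S : Finset ι} {C : ι → Set M}
    {l : ι → M → ℂ} (hl : ∀ i ∈ S, Defines E (l i) (C i) p) {s : M → ℂ} (hs : HolNear E s p)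
    (hne : ¬ ∀ᶠ x in 𝓝 p, s x = 0) (hzero : ∀ᶠ x in 𝓝 p, s x = 0 → ∃ i ∈ S, x ∈ C i) :
    ∃ (m : ι → ℕ) (u : M → ℂ), HolNear E u p ∧ u p ≠ 0 ∧
      ∀ᶠ x in 𝓝 p, s x = u x * ∏ i ∈ S, l i x ^ m i := by
  obtain ⟨φ, hφ, hp, hφp, h0⟩ := exists_direction hE hs hne
  obtain ⟨n, hn⟩ : ∃ n : ℕ, analyticOrderAt (fun w : ℂ => s (φ.symm (0, w))) 0 = n := by
    refine ⟨_, (ENat.natCast_toNat ?_).symm⟩
    intro h
    exact h0 (analyticOrderAt_eq_top.1 h)
  exact exists_factor_aux hE hφ hp hφp hl n s hs hn hzero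

/-- a coordinate function is a coordinate function (up to a constant) nearby -/
theorem Defines.nearby {l : M → ℂ} {C : Set M} {p : M} (h : Defines E l C p)
    (hE : Module.finrank ℂ E = 2) : ∀ᶠ q in 𝓝 p, q ∈ C → Defines E l C q := by
  obtain ⟨φ, hφ, hp, -, hφp, hφl⟩ := exists_straight hE h.1 univ_mem
  filter_upwards [h.1.1.nearby, φ.open_source.mem_nhds hp, eventually_eventually_nhds.2 h.2]
    with q h1 h2 h3 hqC
  refine ⟨⟨h1, h3.self_of_nhds.1 hqC, ?_⟩, h3⟩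
  intro h0
  -- `l ∘ φ.symm = fst` near `φ q`
  have hd1 : MDifferentiableAt 𝓘(ℂ, ℂ × ℂ) 𝓘(ℂ, E) φ.symm (φ q) := hφ.mds _ (φ.map_source h2)
  have h4 : HasMFDerivAt 𝓘(ℂ, E) 𝓘(ℂ, ℂ) l q (0 : E →L[ℂ] ℂ) := by
    have h := h1.self.hasMFDerivAt
    rw [h0] at h
    exact h
  have h4' : HasMFDerivAt 𝓘(ℂ, E) 𝓘(ℂ, ℂ) l (φ.symm (φ q)) (0 : E →L[ℂ] ℂ) := by
    rw [φ.left_inv h2]; exact h4
  have h5 := HasMFDerivAt.comp (φ q) h4' hd1.hasMFDerivAt
  have h6 : (l ∘ φ.symm) =ᶠ[𝓝 (φ q)] fun y : ℂ × ℂ => y.1 := by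
    filter_upwards [φ.open_target.mem_nhds (φ.map_source h2)] with y hy
    rw [Function.comp_apply, ← hφl _ (φ.map_target hy), φ.right_inv hy]
  have h7 : HasMFDerivAt 𝓘(ℂ, ℂ × ℂ) 𝓘(ℂ, ℂ) (fun y : ℂ × ℂ => y.1) (φ q)
      (0 : ℂ × ℂ →L[ℂ] ℂ) := by
    have := h5.congr_of_eventuallyEq h6.symm
    exact this
  have h8 : HasFDerivAt (fun y : ℂ × ℂ => y.1) (0 : ℂ × ℂ →L[ℂ] ℂ) (φ q) :=
    hasMFDerivAt_iff_hasFDerivAt.1 h7
  have h9 : HasFDerivAt (fun y : ℂ × ℂ => y.1) (ContinuousLinearMap.fst ℂ ℂ ℂ) (φ q) :=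
    (ContinuousLinearMap.fst ℂ ℂ ℂ).hasFDerivAt
  have h10 := DFunLike.congr_fun (h8.unique h9) ((1, 0) : ℂ × ℂ)
  simp at h10

/-- two defining functions differ by a unit -/
theorem Defines.unit {l l' : M → ℂ} {C : Set M} {p : M} (h : Defines E l C p)
    (h' : Defines E l' C p) (hE : Module.finrank ℂ E = 2) :
    ∃ v : M → ℂ, HolNear E v p ∧ v p ≠ 0 ∧ ∀ᶠ x in 𝓝 p, l' x = l x * v x := by
  obtain ⟨v, hv, hlv⟩ := exists_div hE h.1 h'.1.1 (by
    filter_upwards [h.2, h'.2] with x h1 h2 h3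
    exact h2.1 (h1.2 h3))
  obtain ⟨v', hv', hlv'⟩ := exists_div hE h'.1 h.1.1 (by
    filter_upwards [h.2, h'.2] with x h1 h2 h3
    exact h1.1 (h2.2 h3))
  refine ⟨v, hv, fun h0 => ?_, hlv⟩
  -- `v v' = 1` where `l ≠ 0`
  have h1 : ∀ᶠ x in 𝓝 p, l x ≠ 0 → v x * v' x = 1 := by
    filter_upwards [hlv, hlv'] with x h1 h2 h3
    rw [h1, mul_assoc] at h2
    exact (mul_left_cancel₀ h3 (by rw [mul_one]; exact h2)).symm
  have h2 : ContinuousAt (fun x => v x * v' x) p := hv.continuousAt.mul hv'.continuousAt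
  have h3 : Tendsto (fun x => v x * v' x) (𝓝 p) (𝓝 0) := by
    have := h2.tendsto
    rwa [h0, zero_mul] at this
  have h4 : ∀ᶠ x in 𝓝 p, v x * v' x ≠ 1 := h3.eventually_ne zero_ne_one
  have h5 : ∀ᶠ x in 𝓝 p, l x = 0 := by
    filter_upwards [h1, h4] with x h6 h7
    by_contra h8
    exact h7 (h6 h8)
  -- contradiction: `l` is a coordinate
  obtain ⟨φ, hφ, hp, -, hφp, hφl⟩ := exists_straight hE h.1 univ_mem
  have h6 := (eventually_chart (φ := φ) hp).2 h5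
  rw [hφp] at h6
  have h7 : ∀ᶠ y in 𝓝 (0 : ℂ × ℂ), y ∈ φ.target :=
    φ.open_target.mem_nhds (hφp ▸ φ.map_source hp)
  have hc : Continuous fun t : ℂ => (t, (0 : ℂ)) := by fun_prop
  have h8 : ∀ᶠ t in 𝓝 (0 : ℂ), t = 0 := by
    filter_upwards [(hc.tendsto' 0 0 rfl).eventually (h6.and h7)] with t ht
    have h9 := hφl _ (φ.map_target ht.2)
    rw [φ.right_inv ht.2, ht.1] at h9
    exact h9
  have h9 : ∀ᶠ t in 𝓝[≠] (0 : ℂ), False := by
    rw [eventually_nhdsWithin_iff]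
    filter_upwards [h8] with t ht ht0
    exact ht0 ht
  exact (NormedField.nhdsNE_neBot (0 : ℂ)).ne (eventually_false_iff_eq_bot.1 h9)

end local_

end Vale.Agent.P267.H62
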