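import Vale.Agent.P267.H62.StrM

/-! P267, package D-LOCFIN (helper62): division, zeros, two curves meet in isolated points. -/

open Set Filter Topology Metric
open scoped Manifold ContDiff

namespace Vale.Agent.P267.H62

variable {E : Type*} [NormedAddCommGroup E] [NormedSpace ℂ E]
  {M : Type*} [TopologicalSpace M] [ChartedSpace E M]

section basic

variable [IsManifold 𝓘(ℂ, E) 1 M]

/-- affine coordinates in the preferred chart -/
theorem exists_hchart (p : M) (A : E ≃L[ℂ] ℂ × ℂ) :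
    ∃ φ : OpenPartialHomeomorph M (ℂ × ℂ), HChart E φ ∧ φ.source = (chartAt E p).source ∧
      ∀ x, φ x = A (chartAt E p x - chartAt E p p) := by
  set e := chartAt E p with he
  have hmd := mdifferentiable_chart (I := 𝓘(ℂ, E)) (M := M) p
  let h : E ≃ₜ ℂ × ℂ := (Homeomorph.subRight (e p)).trans A.toHomeomorph
  have hh : ∀ y, h y = A (y - e p) := fun y => rfl
  have hhs : ∀ z, h.symm z = A.symm z + e p := fun z => rfl
  refine ⟨e.trans h.toOpenPartialHomeomorph, ⟨?_, ?_⟩, ?_, fun x => rfl⟩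
  · intro x hx
    rw [OpenPartialHomeomorph.trans_source] at hx
    refine MDifferentiableAt.comp (I' := 𝓘(ℂ, E)) (g := h) (f := e) x
      (mdifferentiableAt_iff_differentiableAt.2 ?_) (hmd.mdifferentiableAt hx.1)
    change DifferentiableAt ℂ (fun y => A (y - e p)) (e x)
    fun_prop
  · intro y hy
    rw [OpenPartialHomeomorph.trans_target] at hy
    refine MDifferentiableAt.comp (I' := 𝓘(ℂ, E)) (g := e.symm) (f := h.symm) y
      (hmd.mdifferentiableAt_symm hy.2) (mdifferentiableAt_iff_differentiableAt.2 ?_)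
    change DifferentiableAt ℂ (fun z => A.symm z + e p) y
    fun_prop
  · rw [OpenPartialHomeomorph.trans_source]
    simp

omit [IsManifold 𝓘(ℂ, E) 1 M] in
/-- functions of a chart: eventual statements -/
theorem eventually_chart {φ : OpenPartialHomeomorph M (ℂ × ℂ)} {p : M} (hp : p ∈ φ.source)
    {P : M → Prop} : (∀ᶠ y in 𝓝 (φ p), P (φ.symm y)) ↔ ∀ᶠ x in 𝓝 p, P x := by
  constructor
  · intro h
    filter_upwards [(φ.continuousAt hp).tendsto.eventually h, φ.open_source.mem_nhds hp]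
      with x hx hxs
    rwa [φ.left_inv hxs] at hx
  · intro h
    have h1 : Tendsto φ.symm (𝓝 (φ p)) (𝓝 p) := by
      have := (φ.continuousAt_symm (φ.map_source hp)).tendsto
      rwa [φ.left_inv hp] at this
    exact h1.eventually h

/-- **Division.** -/
theorem exists_div (hE : Module.finrank ℂ E = 2) {l s : M → ℂ} {p : M} (hl : IsCoord E l p)
    (hs : HolNear E s p) (h0 : ∀ᶠ x in 𝓝 p, l x = 0 → s x = 0) :
    ∃ s' : M → ℂ, HolNear E s' p ∧ ∀ᶠ x in 𝓝 p, s x = l x * s' x := by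
  obtain ⟨φ, hφ, hp, -, hφp, hφl⟩ := exists_straight hE hl univ_mem
  have h1 := hs.comp_symm hφ hp
  have h2 := (eventually_chart (φ := φ) hp).2 h0
  rw [hφp] at h1 h2
  have h3 : ∀ᶠ y in 𝓝 (0 : ℂ × ℂ), y ∈ φ.target :=
    φ.open_target.mem_nhds (hφp ▸ φ.map_source hp)
  obtain ⟨R, hR, h4⟩ := Metric.eventually_nhds_iff_ball.1 ((h1.and h2).and h3)
  obtain ⟨g, hg, hsg⟩ := div_fst (s := fun y => s (φ.symm y)) hR
    (fun y hy => (h4 y hy).1.1.differentiableWithinAt) (fun w hw => by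
      have hm : ((0 : ℂ), w) ∈ ball (0 : ℂ × ℂ) R := by
        rw [mem_ball_zero_iff, Prod.norm_def]
        exact max_lt (by simpa using hR) hw
      obtain ⟨⟨-, h5⟩, h6⟩ := h4 _ hm
      refine h5 ?_
      rw [← hφl _ (φ.map_target h6), φ.right_inv h6])
  refine ⟨fun x => g (φ x), HolNear.of_comp hφ hp ?_, ?_⟩
  · rw [hφp]
    filter_upwards [ball_mem_nhds (0 : ℂ × ℂ) (half_pos hR)] with y hy
    exact hg.differentiableAt (isOpen_ball.mem_nhds hy)
  · have h7 := (φ.continuousAt hp).tendsto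
    rw [hφp] at h7
    filter_upwards [h7.eventually (ball_mem_nhds (0 : ℂ × ℂ) (half_pos hR)),
      φ.open_source.mem_nhds hp] with x hx hxs
    have h8 := hsg _ hx
    rw [φ.left_inv hxs, hφl x hxs] at h8
    exact h8

/-- **Zeros are not isolated.** -/
theorem frequently_zero (hE : Module.finrank ℂ E = 2) {s : M → ℂ} {p : M} (hs : HolNear E s p)
    (h0 : s p = 0) : ∃ᶠ x in 𝓝[≠] p, s x = 0 := by
  have : FiniteDimensional ℂ E := Module.finite_of_finrank_pos (by rw [hE]; norm_num)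
  have hdim : Module.finrank ℂ E = Module.finrank ℂ (ℂ × ℂ) := by
    rw [hE, Module.finrank_prod, Module.finrank_self]
  obtain ⟨φ, hφ, hsrc, hφx⟩ := exists_hchart (M := M) p
    (ContinuousLinearEquiv.ofFinrankEq (𝕜 := ℂ) hdim)
  have hp : p ∈ φ.source := by rw [hsrc]; exact mem_chart_source E p
  have hφp : φ p = 0 := by rw [hφx]; simp
  intro hcon
  rw [eventually_nhdsWithin_iff] at hcon
  have h1 := hs.comp_symm hφ hp
  have h2 := (eventually_chart (φ := φ) hp).2 hcon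
  rw [hφp] at h1 h2
  have h3 : ∀ᶠ y in 𝓝 (0 : ℂ × ℂ), y ∈ φ.target :=
    φ.open_target.mem_nhds (hφp ▸ φ.map_source hp)
  obtain ⟨R, hR, h4⟩ := Metric.eventually_nhds_iff_ball.1 ((h1.and h2).and h3)
  refine not_isolated (s := fun y => s (φ.symm y)) hR
    (fun y hy => (h4 y hy).1.1.differentiableWithinAt) ?_ ?_
  · have : φ.symm 0 = p := by rw [← hφp, φ.left_inv hp]
    simp only [this, h0]
  · intro y hy hy0 hsy
    refine (h4 y hy).1.2 ?_ hsy
    intro h
    apply hy0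
    rw [← φ.right_inv (h4 y hy).2, h, hφp]

/-- A holomorphic function on a curve vanishes near a point or has an isolated zero. -/
theorem curve_dichotomy (hE : Module.finrank ℂ E = 2) {l s : M → ℂ} {C : Set M} {p : M}
    (hl : Defines E l C p) (hs : HolNear E s p) :
    (∀ᶠ x in 𝓝 p, x ∈ C → s x = 0) ∨ ∀ᶠ x in 𝓝[≠] p, x ∈ C → s x ≠ 0 := by
  obtain ⟨φ, hφ, hp, -, hφp, hφl⟩ := exists_straight hE hl.1 univ_mem
  have h1 := hs.comp_symm hφ hp
  rw [hφp] at h1
  have hc : Tendsto (fun t : ℂ => ((0 : ℂ), t)) (𝓝 0) (𝓝 (0 : ℂ × ℂ)) := by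
    have : Continuous fun t : ℂ => ((0 : ℂ), t) := by fun_prop
    exact this.tendsto' 0 0 rfl
  have h2 : AnalyticAt ℂ (fun t : ℂ => s (φ.symm (0, t))) 0 := by
    rw [Complex.analyticAt_iff_eventually_differentiableAt]
    filter_upwards [hc.eventually h1] with t ht
    exact DifferentiableAt.comp (g := fun y => s (φ.symm y)) t ht (by fun_prop)
  have h7 := (φ.continuousAt hp).tendsto
  rw [hφp] at h7
  have h8 : Tendsto (fun x => (φ x).2) (𝓝 p) (𝓝 0) := by
    have := (continuous_snd.tendsto (0 : ℂ × ℂ)).comp h7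
    exact this
  rcases h2.eventually_eq_zero_or_eventually_ne_zero with h3 | h3
  · left
    filter_upwards [h8.eventually h3, φ.open_source.mem_nhds hp, hl.2] with x hx hxs hxC hC
    have h9 : (0, (φ x).2) = φ x := by
      rw [← (hxC.1 hC), ← hφl x hxs]
    rw [h9, φ.left_inv hxs] at hx
    exact hx
  · right
    rw [eventually_nhdsWithin_iff] at h3 ⊢
    filter_upwards [h8.eventually h3, φ.open_source.mem_nhds hp, hl.2] with x hx hxs hxC hxp hC
    have h9 : (0, (φ x).2) = φ x := by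
      rw [← (hxC.1 hC), ← hφl x hxs]
    rw [h9, φ.left_inv hxs] at hx
    refine hx fun h => hxp ?_
    have h10 : (φ x).2 = 0 := h
    have h11 : φ x = φ p := by rw [hφp, ← h9, h10]; rfl
    exact φ.injOn hxs hp h11

/-- points of a curve are not isolated -/
theorem frequently_mem (hE : Module.finrank ℂ E = 2) {l : M → ℂ} {C : Set M} {p : M}
    (hl : Defines E l C p) : ∃ᶠ x in 𝓝[≠] p, x ∈ C := by
  obtain ⟨φ, hφ, hp, -, hφp, hφl⟩ := exists_straight hE hl.1 univ_mem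
  intro hcon
  rw [eventually_nhdsWithin_iff] at hcon
  have h2 := (eventually_chart (φ := φ) hp).2 (hcon.and hl.2)
  rw [hφp] at h2
  have hc : Tendsto (fun t : ℂ => ((0 : ℂ), t)) (𝓝 0) (𝓝 (0 : ℂ × ℂ)) := by
    have : Continuous fun t : ℂ => ((0 : ℂ), t) := by fun_prop
    exact this.tendsto' 0 0 rfl
  have h3 : ∀ᶠ y in 𝓝 (0 : ℂ × ℂ), y ∈ φ.target :=
    φ.open_target.mem_nhds (hφp ▸ φ.map_source hp)
  have h4 : ∀ᶠ t in 𝓝[≠] (0 : ℂ), False := by
    rw [eventually_nhdsWithin_iff]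
    filter_upwards [hc.eventually (h2.and h3)] with t ht ht0
    obtain ⟨⟨h5, h6⟩, h7⟩ := ht
    refine h5 ?_ (h6.2 ?_)
    · intro h
      have : ((0 : ℂ), t) = 0 := by
        rw [← φ.right_inv h7, h, hφp]
      exact ht0 (Prod.ext_iff.1 this).2
    · rw [← hφl _ (φ.map_target h7), φ.right_inv h7]
  exact (NormedField.nhdsNE_neBot (0 : ℂ)).ne (eventually_false_iff_eq_bot.1 h4)

end basic

section two

variable [IsManifold 𝓘(ℂ, E) 1 M]

/-- germs of curves -/
theorem dichotomy_two (hE : Module.finrank ℂ E = 2) {C₁ C₂ : Set M} (h₁ : IsCurve E C₁)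
    (h₂ : IsCurve E C₂) {q : M} (hq₁ : q ∈ C₁) (hq₂ : q ∈ C₂) :
    (∀ᶠ x in 𝓝 q, x ∈ C₁ → x ∈ C₂) ∨ ∀ᶠ x in 𝓝[≠] q, ¬ (x ∈ C₁ ∧ x ∈ C₂) := by
  obtain ⟨l₁, hl₁⟩ := h₁.2 q hq₁
  obtain ⟨l₂, hl₂⟩ := h₂.2 q hq₂
  rcases curve_dichotomy hE hl₁ hl₂.1.1 with h | h
  · left
    filter_upwards [h, hl₂.2] with x hx hx2 hxC
    exact hx2.2 (hx hxC)
  · right
    rw [eventually_nhdsWithin_iff] at h ⊢
    filter_upwards [h, hl₂.2] with x hx hx2 hne hxC
    exact hx hne hxC.1 (hx2.1 hxC.2)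

theorem isOpen_isolated {α : Type*} [TopologicalSpace α] [T1Space α] (P : α → Prop) :
    IsOpen {q : α | ∀ᶠ x in 𝓝[≠] q, ¬ P x} := by
  rw [isOpen_iff_mem_nhds]
  intro q hq
  have h1 := eventually_nhdsWithin_iff.1 hq
  filter_upwards [eventually_eventually_nhds.2 h1] with y hy
  by_cases hyq : y = q
  · subst hyq; exact hq
  · change ∀ᶠ x in 𝓝[≠] y, ¬ P x
    rw [eventually_nhdsWithin_iff]
    filter_upwards [hy, isOpen_ne.mem_nhds hyq] with x hx hxq _
    exact hx hxq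

theorem subset_or_isolated [T1Space M] (hE : Module.finrank ℂ E = 2) {C₁ C₂ : Set M}
    (h₁ : IsCurve E C₁) (h₂ : IsCurve E C₂) (hc₁ : IsPreconnected C₁) :
    C₁ ⊆ C₂ ∨ ∀ q ∈ C₁, ∀ᶠ x in 𝓝[≠] q, ¬ (x ∈ C₁ ∧ x ∈ C₂) := by
  set U : Set M := {q | ∀ᶠ x in 𝓝 q, x ∈ C₁ → x ∈ C₂} with hU
  set V : Set M := {q | ∀ᶠ x in 𝓝[≠] q, ¬ (x ∈ C₁ ∧ x ∈ C₂)} with hV
  have hUo : IsOpen U := isOpen_setOfPred_eventually_nhds
  have hVo : IsOpen V := isOpen_isolated _
  have hcov : C₁ ⊆ U ∪ V := by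
    intro q hq₁
    by_cases hq₂ : q ∈ C₂
    · exact dichotomy_two hE h₁ h₂ hq₁ hq₂
    · right
      change ∀ᶠ x in 𝓝[≠] q, ¬ (x ∈ C₁ ∧ x ∈ C₂)
      refine Eventually.filter_mono nhdsWithin_le_nhds ?_
      filter_upwards [h₂.1.isOpen_compl.mem_nhds hq₂] with x hx hxC
      exact hx hxC.2
  have hdis : C₁ ∩ (U ∩ V) = ∅ := by
    rw [eq_empty_iff_forall_notMem]
    rintro q ⟨hq, hqU, hqV⟩
    obtain ⟨l, hl⟩ := h₁.2 q hq
    have h1 : ∃ᶠ x in 𝓝[≠] q, x ∈ C₁ := frequently_mem hE hl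
    refine h1 ?_
    filter_upwards [hqV, Eventually.filter_mono nhdsWithin_le_nhds hqU] with x hx1 hx2 hx
    exact hx1 ⟨hx, hx2 hx⟩
  rcases isPreconnected_iff_subset_of_disjoint.1 hc₁ U V hUo hVo hcov hdis with h | h
  · left
    intro x hx
    exact (h hx).self_of_nhds hx
  · right
    exact fun q hq => h hq

/-- **Two different connected curves meet in isolated points.** -/
theorem isolated_of_ne [T1Space M] (hE : Module.finrank ℂ E = 2) {C₁ C₂ : Set M}
    (h₁ : IsCurve E C₁) (h₂ : IsCurve E C₂) (hc₁ : IsPreconnected C₁) (hc₂ : IsPreconnected C₂)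
    (hne : C₁ ≠ C₂) (q : M) : ∀ᶠ x in 𝓝[≠] q, ¬ (x ∈ C₁ ∧ x ∈ C₂) := by
  by_cases hq₁ : q ∈ C₁
  swap
  · refine Eventually.filter_mono nhdsWithin_le_nhds ?_
    filter_upwards [h₁.1.isOpen_compl.mem_nhds hq₁] with x hx hxC
    exact hx hxC.1
  by_cases hq₂ : q ∈ C₂
  swap
  · refine Eventually.filter_mono nhdsWithin_le_nhds ?_
    filter_upwards [h₂.1.isOpen_compl.mem_nhds hq₂] with x hx hxC
    exact hx hxC.2
  rcases subset_or_isolated hE h₁ h₂ hc₁ with h | h
  swap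
  · exact h q hq₁
  rcases subset_or_isolated hE h₂ h₁ hc₂ with h' | h'
  swap
  · filter_upwards [h' q hq₂] with x hx hxC
    exact hx hxC.symm
  exact absurd (h.antisymm h') hne

end two

end Vale.Agent.P267.H62
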