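import Mathlib

/-! P267, package D-LOCFIN (helper62): definitions.

Curves on a complex manifold `M` modelled on a complex normed space `E` (complex dimension 2). -/

open Set Filter Topology
open scoped Manifold ContDiff

namespace Vale.Agent.P267.H62

variable {E : Type*} [NormedAddCommGroup E] [NormedSpace ℂ E]
  {M : Type*} [TopologicalSpace M] [ChartedSpace E M]

/-- `s` is holomorphic near `p` -/
def HolNear (E : Type*) [NormedAddCommGroup E] [NormedSpace ℂ E] {M : Type*} [TopologicalSpace M]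
    [ChartedSpace E M] (s : M → ℂ) (p : M) : Prop :=
  ∀ᶠ x in 𝓝 p, MDifferentiableAt 𝓘(ℂ, E) 𝓘(ℂ, ℂ) s x

/-- `l` is a holomorphic coordinate function at `p` -/
def IsCoord (E : Type*) [NormedAddCommGroup E] [NormedSpace ℂ E] {M : Type*} [TopologicalSpace M]
    [ChartedSpace E M] (l : M → ℂ) (p : M) : Prop :=
  HolNear E l p ∧ l p = 0 ∧ mfderiv 𝓘(ℂ, E) 𝓘(ℂ, ℂ) l p ≠ 0

/-- `l` is a coordinate function at `p` which defines `C` near `p` -/
def Defines (E : Type*) [NormedAddCommGroup E] [NormedSpace ℂ E] {M : Type*} [TopologicalSpace M]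
    [ChartedSpace E M] (l : M → ℂ) (C : Set M) (p : M) : Prop :=
  IsCoord E l p ∧ ∀ᶠ x in 𝓝 p, (x ∈ C ↔ l x = 0)

/-- closed embedded complex curve -/
def IsCurve (E : Type*) [NormedAddCommGroup E] [NormedSpace ℂ E] {M : Type*} [TopologicalSpace M]
    [ChartedSpace E M] (C : Set M) : Prop :=
  IsClosed C ∧ ∀ p ∈ C, ∃ l : M → ℂ, Defines E l C p

end Vale.Agent.P267.H62
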