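import Mathlib

/-!
# The inner end is connected

`M` connected and locally path connected, `f` a continuous function, `φ` a homeomorphism with
`f (φ x) = f x - 1`, and `{0 ≤ f ≤ 2}` compact. Then for every `R₁` there is `R₂` and a preconnected
set `V` with `{f < R₂} ⊆ V ⊆ {f < R₁}`.
-/

open Set Filter Topology

noncomputable section

namespace Vale.Agent.P267.H62

variable {M : Type*} [TopologicalSpace M]

theorem f_iterate {f : M → ℝ} {φ : M ≃ₜ M} (hφ : ∀ x, f (φ x) = f x - 1) (k : ℕ) (x : M) :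
    f (φ^[k] x) = f x - k := by
  induction k with
  | zero => simp
  | succ k ih => rw [Function.iterate_succ_apply', hφ, ih]; push_cast; ring

theorem f_iterate_symm {f : M → ℝ} {φ : M ≃ₜ M} (hφ : ∀ x, f (φ x) = f x - 1) (k : ℕ) (x : M) :
    f (φ.symm^[k] x) = f x + k := by
  induction k with
  | zero => simp
  | succ k ih =>
    have h : ∀ y, f (φ.symm y) = f y + 1 := by
      intro y
      have := hφ (φ.symm y)
      rw [φ.apply_symm_apply] at this
      linarith
    rw [Function.iterate_succ_apply', h, ih]; push_cast; ring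

theorem iterate_symm_apply (φ : M ≃ₜ M) (k : ℕ) (x : M) : φ^[k] (φ.symm^[k] x) = x :=
  (Function.LeftInverse.iterate φ.apply_symm_apply k) x

theorem continuous_iterate (φ : M ≃ₜ M) (k : ℕ) : Continuous (φ^[k]) := φ.continuous.iterate k

/-- A compact set is contained in a preconnected set on which `f` is bounded above. -/
theorem exists_preconnected_superset [LocallyPathConnectedSpace M] [ConnectedSpace M] {f : M → ℝ}
    (hf : Continuous f) {K : Set M} (hK : IsCompact K) :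
    ∃ Q : Set M, IsPreconnected Q ∧ K ⊆ Q ∧ ∃ b : ℝ, ∀ x ∈ Q, f x ≤ b := by
  classical
  have : PathConnectedSpace M := pathConnectedSpace_iff_connectedSpace.2 inferInstance
  obtain ⟨x0⟩ := (inferInstance : Nonempty M)
  have hloc : ∀ x : M, ∃ U ∈ 𝓝 x, IsPreconnected U ∧ x ∈ U ∧ ∀ y ∈ U, f y ≤ f x + 1 := by
    intro x
    have h1 : {y | f y < f x + 1} ∈ 𝓝 x :=
      (isOpen_Iio.preimage hf).mem_nhds (by simp)
    obtain ⟨U, hU, hU2, hU3⟩ := locallyConnectedSpace_iff_connected_subsets.1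
      (inferInstance : LocallyConnectedSpace M) x _ h1
    exact ⟨U, hU, hU2, mem_of_mem_nhds hU, fun y hy => (hU3 hy).le⟩
  choose U hU hUc hUx hUf using hloc
  obtain ⟨t, -, ht⟩ := hK.elim_nhds_subcover U (fun x _ => hU x)
  let γ : ∀ x : M, Path x0 x := fun x => PathConnectedSpace.somePath x0 x
  have hS : ∀ x, IsPreconnected (U x ∪ range (γ x)) := by
    intro x
    refine IsPreconnected.union x (hUx x) ⟨1, (γ x).target⟩ (hUc x) ?_
    exact isPreconnected_range (γ x).continuous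
  have hx0 : ∀ x, x0 ∈ U x ∪ range (γ x) := fun x => Or.inr ⟨0, (γ x).source⟩
  have hbd : ∀ x, ∃ b : ℝ, ∀ y ∈ U x ∪ range (γ x), f y ≤ b := by
    intro x
    obtain ⟨b, hb⟩ := (isCompact_range (γ x).continuous).exists_bound_of_continuousOn hf.continuousOn
    refine ⟨max (f x + 1) b, ?_⟩
    rintro y (hy | hy)
    · exact (hUf x y hy).trans (le_max_left _ _)
    · exact (le_abs_self _).trans ((hb y hy).trans (le_max_right _ _))
  choose b hb using hbd
  refine ⟨⋃₀ ((fun x => U x ∪ range (γ x)) '' (↑t : Set M)), ?_, ?_, ?_⟩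
  · refine isPreconnected_sUnion x0 _ ?_ ?_
    · rintro _ ⟨x, -, rfl⟩; exact hx0 x
    · rintro _ ⟨x, -, rfl⟩; exact hS x
  · intro x hx
    obtain ⟨i, hi, hxi⟩ := mem_iUnion₂.1 (ht hx)
    exact ⟨_, ⟨i, hi, rfl⟩, Or.inl hxi⟩
  · refine ⟨∑ x ∈ t, |b x|, ?_⟩
    rintro y ⟨_, ⟨x, hx, rfl⟩, hy⟩
    exact (hb x y hy).trans ((le_abs_self _).trans
      (Finset.single_le_sum (f := fun x => |b x|) (fun i _ => abs_nonneg _) hx))

/-- **The inner end is connected.** -/
theorem end_connected [LocallyPathConnectedSpace M] [ConnectedSpace M] {f : M → ℝ}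
    (hf : Continuous f) (hK : IsCompact {x | 0 ≤ f x ∧ f x ≤ 2}) {φ : M ≃ₜ M}
    (hφ : ∀ x, f (φ x) = f x - 1) (R₁ : ℝ) :
    ∃ R₂ : ℝ, ∃ V : Set M, IsPreconnected V ∧ {x | f x < R₂} ⊆ V ∧ V ⊆ {x | f x < R₁} := by
  obtain ⟨Q, hQ, hKQ, b, hb⟩ := exists_preconnected_superset hf hK
  obtain ⟨k0, hk0⟩ := exists_nat_gt (b - R₁)
  -- a point in the overlap of two consecutive slabs
  obtain ⟨y0⟩ := (inferInstance : Nonempty M)
  obtain ⟨z0, hz0⟩ : ∃ z : M, 0 ≤ f z ∧ f z ≤ 1 := by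
    rcases le_or_gt 0 (f y0) with h | h
    · refine ⟨φ^[⌊f y0⌋₊] y0, ?_, ?_⟩
      · rw [f_iterate hφ]; have := Nat.floor_le h; linarith
      · rw [f_iterate hφ]; have := Nat.lt_floor_add_one (f y0); linarith
    · refine ⟨φ.symm^[⌈-f y0⌉₊] y0, ?_, ?_⟩
      · rw [f_iterate_symm hφ]; have := Nat.le_ceil (-f y0); linarith
      · rw [f_iterate_symm hφ]
        have := Nat.ceil_lt_add_one (a := -f y0) (by linarith)
        linarith
  refine ⟨-k0, ⋃ k : ℕ, φ^[k + k0] '' Q, ?_, ?_, ?_⟩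
  · refine IsPreconnected.iUnion_of_chain (fun k => hQ.image _ (continuous_iterate φ _).continuousOn)
      (fun k => ?_)
    refine ⟨φ^[k + k0] z0, ⟨z0, hKQ ⟨hz0.1, by linarith [hz0.2]⟩, rfl⟩, ?_⟩
    refine ⟨φ.symm z0, hKQ ?_, ?_⟩
    · have := f_iterate_symm hφ 1 z0
      simp only [Function.iterate_one, Nat.cast_one] at this
      constructor
      · rw [this]; linarith [hz0.1]
      · rw [this]; linarith [hz0.2]
    · have : (Order.succ k) + k0 = (k + k0) + 1 := by simp [Order.succ]; ring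
      rw [this, Function.iterate_succ_apply, φ.apply_symm_apply]
  · intro x hx
    have hx' : f x < -k0 := hx
    have h1 : (⌈-f x⌉₊ : ℝ) < -f x + 1 := Nat.ceil_lt_add_one (by linarith [(Nat.cast_nonneg k0 : (0:ℝ) ≤ k0)])
    have h2 : -f x ≤ (⌈-f x⌉₊ : ℝ) := Nat.le_ceil _
    have h3 : k0 ≤ ⌈-f x⌉₊ := by
      have : (k0 : ℝ) ≤ (⌈-f x⌉₊ : ℝ) := by linarith
      exact_mod_cast this
    obtain ⟨m, hm⟩ := Nat.exists_eq_add_of_le' h3
    refine mem_iUnion.2 ⟨m, φ.symm^[m + k0] x, hKQ ?_, iterate_symm_apply φ _ x⟩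
    rw [← hm]
    constructor
    · rw [f_iterate_symm hφ]; linarith
    · rw [f_iterate_symm hφ]; linarith
  · intro x hx
    obtain ⟨k, y, hy, rfl⟩ := mem_iUnion.1 hx
    show f (φ^[k + k0] y) < R₁
    rw [f_iterate hφ]
    have := hb y hy
    push_cast
    have : (0:ℝ) ≤ k := Nat.cast_nonneg k
    linarith

end Vale.Agent.P267.H62
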