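import Vale.Agent.P268.Hol

/-! P267, package D-LOCFIN (helper62): local theory on `ℂ × ℂ`: division, no isolated zeros. -/

open Set Filter Topology Metric

namespace Vale.Agent.P267.H62

/-- **Division.** -/
theorem div_fst {s : ℂ × ℂ → ℂ} {R : ℝ} (hR : 0 < R)
    (hs : DifferentiableOn ℂ s (ball 0 R)) (h0 : ∀ w : ℂ, ‖w‖ < R → s (0, w) = 0) :
    ∃ g : ℂ × ℂ → ℂ, DifferentiableOn ℂ g (ball 0 (R / 2)) ∧
      ∀ x ∈ ball (0 : ℂ × ℂ) (R / 2), s x = x.1 * g x := by
  set r : ℝ := R * (3 / 4) with hr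
  have hr0 : 0 < r := by positivity
  have hrR : r < R := by rw [hr]; linarith
  have hRr : R / 2 < r := by rw [hr]; linarith
  have mem : ∀ {z w : ℂ}, ‖z‖ < R → ‖w‖ < R → (z, w) ∈ ball (0 : ℂ × ℂ) R := by
    intro z w hz hw
    rw [mem_ball_zero_iff, Prod.norm_def]
    exact max_lt hz hw
  -- the integrand
  let G : (ℂ × ℂ) × ℂ → ℂ := fun y => (y.2 - y.1.1)⁻¹ • (s (y.2, y.1.2) * (y.2)⁻¹)
  have hW : IsOpen (ball (0 : ℂ) R \ closedBall (0 : ℂ) (R / 2)) :=
    isOpen_ball.sdiff isClosed_closedBall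
  have hG : DifferentiableOn ℂ G
      (ball (0 : ℂ × ℂ) (R / 2) ×ˢ (ball (0 : ℂ) R \ closedBall (0 : ℂ) (R / 2))) := by
    rintro ⟨⟨z, w⟩, t⟩ ⟨hzw, ht, ht'⟩
    apply DifferentiableAt.differentiableWithinAt
    rw [mem_ball_zero_iff, Prod.norm_def, max_lt_iff] at hzw
    rw [mem_ball_zero_iff] at ht
    rw [mem_closedBall_zero_iff, not_le] at ht'
    have h1 : t - z ≠ 0 := fun h => by
      rw [sub_eq_zero] at h
      subst h
      exact absurd hzw.1 (not_lt.2 ht'.le)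
    have h2 : t ≠ 0 := fun h => by
      subst h
      rw [norm_zero] at ht'
      linarith
    have h3 : DifferentiableAt ℂ s (t, w) :=
      hs.differentiableAt (isOpen_ball.mem_nhds (mem ht (hzw.2.trans (by linarith))))
    have h4 : DifferentiableAt ℂ (fun y : (ℂ × ℂ) × ℂ => (y.2, y.1.2)) ((z, w), t) := by fun_prop
    have h5 : DifferentiableAt ℂ (fun y : (ℂ × ℂ) × ℂ => s (y.2, y.1.2)) ((z, w), t) :=
      DifferentiableAt.comp (g := s) ((z, w), t) h3 h4
    have h6 : DifferentiableAt ℂ (fun y : (ℂ × ℂ) × ℂ => (y.2 - y.1.1)⁻¹) ((z, w), t) :=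
      ((differentiableAt_snd).sub (differentiableAt_fst.comp _ differentiableAt_fst)).inv h1
    have h7 : DifferentiableAt ℂ (fun y : (ℂ × ℂ) × ℂ => s (y.2, y.1.2) * (y.2)⁻¹) ((z, w), t) :=
      h5.fun_mul (differentiableAt_snd.inv h2)
    exact h6.fun_smul h7
  have hsW : sphere (0 : ℂ) r ⊆ ball (0 : ℂ) R \ closedBall (0 : ℂ) (R / 2) := by
    intro t ht
    rw [mem_sphere_zero_iff_norm] at ht
    refine ⟨?_, ?_⟩
    · rw [mem_ball_zero_iff, ht]; exact hrR
    · rw [mem_closedBall_zero_iff, not_le, ht]; exact hRr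
  have hI := P268.differentiableOn_circleIntegral (E := ℂ × ℂ) (F := ℂ) hr0.le isOpen_ball hW hsW hG
  refine ⟨fun x => (2 * Real.pi * Complex.I : ℂ)⁻¹ • ∮ t in C(0, r), G (x, t),
    hI.fun_const_smul _, ?_⟩
  rintro ⟨z, w⟩ hzw
  rw [mem_ball_zero_iff, Prod.norm_def, max_lt_iff] at hzw
  obtain ⟨hz, hw⟩ := hzw
  simp only at hz hw
  have hw' : ‖w‖ < R := hw.trans (by linarith)
  -- the function t ↦ s (t, w)
  have hd : DifferentiableOn ℂ (fun t => s (t, w)) (ball 0 R) := by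
    intro t ht
    rw [mem_ball_zero_iff] at ht
    have h3 : DifferentiableAt ℂ s (t, w) := hs.differentiableAt (isOpen_ball.mem_nhds (mem ht hw'))
    exact (DifferentiableAt.comp (g := s) t h3 (by fun_prop)).differentiableWithinAt
  -- dslope
  have hd2 : DifferentiableOn ℂ (dslope (fun t => s (t, w)) 0) (ball 0 R) :=
    (Complex.differentiableOn_dslope (ball_mem_nhds 0 hR)).2 hd
  have key := (hd2.mono (closedBall_subset_ball hrR)).circleIntegral_sub_inv_smul (w := z)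
    (by rw [mem_ball_zero_iff]; linarith)
  have hcong : (∮ t in C(0, r), G ((z, w), t)) =
      ∮ t in C(0, r), (t - z)⁻¹ • dslope (fun t => s (t, w)) 0 t := by
    refine circleIntegral.integral_congr hr0.le fun t ht => ?_
    have ht0 : t ≠ 0 := by
      rintro rfl
      rw [mem_sphere_zero_iff_norm, norm_zero] at ht
      linarith
    simp only [G]
    rw [dslope_of_ne _ ht0, slope_def_field]
    simp only [sub_zero, h0 w hw', div_eq_mul_inv]
  change s (z, w) = z * ((2 * Real.pi * Complex.I : ℂ)⁻¹ • ∮ t in C(0, r), G ((z, w), t))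
  rw [hcong, key, smul_smul, inv_mul_cancel₀ (by simp [Real.pi_ne_zero]), one_smul]
  rcases eq_or_ne z 0 with rfl | hz0
  · simp [h0 w hw']
  · rw [dslope_of_ne _ hz0, slope_def_field]
    simp only [sub_zero, h0 w hw']
    field_simp

/-- **Zeros are not isolated.** -/
theorem not_isolated {s : ℂ × ℂ → ℂ} {R : ℝ} (hR : 0 < R)
    (hs : DifferentiableOn ℂ s (ball 0 R)) (h0 : s 0 = 0)
    (hne : ∀ x ∈ ball (0 : ℂ × ℂ) R, x ≠ 0 → s x ≠ 0) : False := by
  have mem : ∀ {z w : ℂ}, ‖z‖ < R → ‖w‖ < R → (z, w) ∈ ball (0 : ℂ × ℂ) R := by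
    intro z w hz hw
    rw [mem_ball_zero_iff, Prod.norm_def]
    exact max_lt hz hw
  set r : ℝ := R / 2 with hr
  have hr0 : 0 < r := by positivity
  have hrR : r < R := by rw [hr]; linarith
  -- lower bound on the compact set |z| = r, |w| ≤ r
  have hK : IsCompact (sphere (0 : ℂ) r ×ˢ closedBall (0 : ℂ) r) :=
    (isCompact_sphere _ _).prod (isCompact_closedBall _ _)
  have hKn : (sphere (0 : ℂ) r ×ˢ closedBall (0 : ℂ) r).Nonempty :=
    ⟨((r : ℂ), 0), by simp [abs_of_pos hr0], by simp [hr0.le]⟩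
  have hKsub : sphere (0 : ℂ) r ×ˢ closedBall (0 : ℂ) r ⊆ ball (0 : ℂ × ℂ) R := by
    rintro ⟨z, w⟩ ⟨hz, hw⟩
    rw [mem_sphere_zero_iff_norm] at hz
    rw [mem_closedBall_zero_iff] at hw
    exact mem (by rw [hz]; exact hrR) (hw.trans_lt hrR)
  obtain ⟨x₀, hx₀, hmin⟩ := hK.exists_isMinOn hKn ((hs.continuousOn.mono hKsub).norm)
  have hc : 0 < ‖s x₀‖ := norm_pos_iff.2 (hne x₀ (hKsub hx₀) (by
    rintro rfl
    have := hx₀.1
    simp only [Prod.fst_zero, mem_sphere_zero_iff_norm, norm_zero] at this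
    linarith))
  set c := ‖s x₀‖ with hcdef
  -- for 0 < |w| ≤ r, |s (0, w)| ≥ c
  have key : ∀ w : ℂ, w ≠ 0 → ‖w‖ ≤ r → c ≤ ‖s (0, w)‖ := by
    intro w hw0 hwr
    have hd : DifferentiableOn ℂ (fun t => (s (t, w))⁻¹) (ball 0 R) := by
      intro t ht
      rw [mem_ball_zero_iff] at ht
      have hm := mem ht (hwr.trans_lt hrR)
      have h3 : DifferentiableAt ℂ s (t, w) := hs.differentiableAt (isOpen_ball.mem_nhds hm)
      have h4 : DifferentiableAt ℂ (fun t : ℂ => s (t, w)) t :=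
        DifferentiableAt.comp (g := s) t h3 (by fun_prop)
      exact (h4.inv (hne _ hm (fun h => hw0 (Prod.ext_iff.1 h).2))).differentiableWithinAt
    have hdc : DiffContOnCl ℂ (fun t => (s (t, w))⁻¹) (ball 0 r) :=
      (hd.mono (by rw [closure_ball _ hr0.ne']; exact closedBall_subset_ball hrR)).diffContOnCl
    have h5 : ∀ t ∈ frontier (ball (0 : ℂ) r), ‖(fun t => (s (t, w))⁻¹) t‖ ≤ c⁻¹ := by
      intro t ht
      rw [frontier_ball _ hr0.ne'] at ht
      simp only [norm_inv]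
      exact inv_anti₀ hc (hmin ⟨ht, by simpa using hwr⟩)
    have h6 := Complex.norm_le_of_forall_mem_frontier_norm_le isBounded_ball hdc h5
      (subset_closure (mem_ball_self hr0))
    simp only [norm_inv] at h6
    exact (inv_le_inv₀ (norm_pos_iff.2 (hne _ (mem (by simpa using hR) (hwr.trans_lt hrR))
      (fun h => hw0 (Prod.ext_iff.1 h).2))) hc).1 h6
  have hcont : Tendsto (fun w : ℂ => ‖s (0, w)‖) (𝓝[≠] 0) (𝓝 0) := by
    have h1 : ContinuousAt s (0 : ℂ × ℂ) :=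
      (hs.differentiableAt (isOpen_ball.mem_nhds (mem_ball_self hR))).continuousAt
    have h2 : Tendsto (fun w : ℂ => ((0 : ℂ), w)) (𝓝 0) (𝓝 (0 : ℂ × ℂ)) := by
      have : Continuous fun w : ℂ => ((0 : ℂ), w) := by fun_prop
      exact this.tendsto' 0 0 rfl
    have h3 := (h1.tendsto.comp h2).norm
    rw [h0, norm_zero] at h3
    exact h3.mono_left nhdsWithin_le_nhds
  have h7 : ∀ᶠ w in 𝓝[≠] (0 : ℂ), c ≤ ‖s (0, w)‖ := by
    rw [eventually_nhdsWithin_iff]
    filter_upwards [closedBall_mem_nhds (0 : ℂ) hr0] with w hw hw0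
    exact key w hw0 (by simpa using hw)
  have := ge_of_tendsto hcont h7
  linarith

end Vale.Agent.P267.H62
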