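import Vale.Agent.P267.H62.Curves

/-! P267, package D-LOCFIN (helper62): local finiteness of families of curves in a zero set. -/

open Set Filter Topology Metric
open scoped Manifold ContDiff

namespace Vale.Agent.P267.H62

variable {E : Type*} [NormedAddCommGroup E] [NormedSpace ℂ E]
  {M : Type*} [TopologicalSpace M] [ChartedSpace E M]

theorem eq_zero_of_lines {f : E → ℂ} {y₀ : E} {r : ℝ} (hf : DifferentiableOn ℂ f (ball y₀ r))
    (h : ∀ k : E, k ≠ 0 → ∀ᶠ t in 𝓝 (0 : ℂ), f (y₀ + t • k) = 0) :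
    ∀ y ∈ ball y₀ r, y ≠ y₀ → f y = 0 := by
  intro y hy hne
  set k := y - y₀ with hk
  have hk0 : k ≠ 0 := sub_ne_zero.2 hne
  have hkr : ‖k‖ < r := by rwa [mem_ball, dist_eq_norm] at hy
  have hk' : 0 < ‖k‖ := norm_pos_iff.2 hk0
  set g : ℂ → ℂ := fun t => f (y₀ + t • k) with hg
  have hgd : DifferentiableOn ℂ g (ball 0 (r / ‖k‖)) := by
    intro t ht
    rw [mem_ball_zero_iff, lt_div_iff₀ hk'] at ht
    have h1 : DifferentiableAt ℂ f (y₀ + t • k) := by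
      refine hf.differentiableAt (isOpen_ball.mem_nhds ?_)
      rw [mem_ball, dist_eq_norm, add_sub_cancel_left, norm_smul]
      exact ht
    exact (DifferentiableAt.comp (g := f) t h1 (by fun_prop)).differentiableWithinAt
  have ha : AnalyticOnNhd ℂ g (ball 0 (r / ‖k‖)) := hgd.analyticOnNhd isOpen_ball
  have h2 := ha.eqOn_zero_of_preconnected_of_eventuallyEq_zero
    (convex_ball (0 : ℂ) _).isPreconnected (mem_ball_self (by rw [lt_div_iff₀ hk']; linarith))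
    (h k hk0)
  have h3 : (1 : ℂ) ∈ ball (0 : ℂ) (r / ‖k‖) := by
    rw [mem_ball_zero_iff, norm_one, lt_div_iff₀ hk']
    linarith
  have h4 := h2 h3
  simpa [hg, hk] using h4

/-- a direction in which `s` is not zero -/
theorem exists_direction [IsManifold 𝓘(ℂ, E) 1 M] (hE : Module.finrank ℂ E = 2) {s : M → ℂ} {p : M}
    (hs : HolNear E s p) (hne : ¬ ∀ᶠ x in 𝓝 p, s x = 0) :
    ∃ φ : OpenPartialHomeomorph M (ℂ × ℂ), HChart E φ ∧ p ∈ φ.source ∧ φ p = 0 ∧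
      ¬ ∀ᶠ w in 𝓝 (0 : ℂ), s (φ.symm (0, w)) = 0 := by
  set e := chartAt E p with he
  have hpe : p ∈ e.source := mem_chart_source E p
  have hmd := mdifferentiable_chart (I := 𝓘(ℂ, E)) (M := M) p
  -- `s` in the chart
  have h1 : Tendsto e.symm (𝓝 (e p)) (𝓝 p) := by
    have := (e.continuousAt_symm (e.map_source hpe)).tendsto
    rwa [e.left_inv hpe] at this
  have h2 : ∀ᶠ y in 𝓝 (e p), DifferentiableAt ℂ (fun y => s (e.symm y)) y := by
    filter_upwards [h1.eventually hs, e.open_target.mem_nhds (e.map_source hpe)] with y hy hyt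
    rw [← mdifferentiableAt_iff_differentiableAt]
    exact MDifferentiableAt.comp (I' := 𝓘(ℂ, E)) (g := s) (f := e.symm) y hy
      (hmd.mdifferentiableAt_symm hyt)
  obtain ⟨r, hr, h3⟩ := Metric.eventually_nhds_iff_ball.1 h2
  have h4 : ∃ k : E, k ≠ 0 ∧ ¬ ∀ᶠ t in 𝓝 (0 : ℂ), s (e.symm (e p + t • k)) = 0 := by
    by_contra hcon
    push Not at hcon
    apply hne
    have h5 := eq_zero_of_lines (f := fun y => s (e.symm y)) (y₀ := e p) (r := r)
      (fun y hy => (h3 y hy).differentiableWithinAt) hcon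
    have : Nontrivial E := Module.nontrivial_of_finrank_pos (R := ℂ) (by rw [hE]; norm_num)
    obtain ⟨k, hk⟩ := exists_ne (0 : E)
    have hp0 : s p = 0 := by
      have := (hcon k hk).self_of_nhds
      simpa [e.left_inv hpe] using this
    filter_upwards [(e.continuousAt hpe).tendsto.eventually (ball_mem_nhds (e p) hr),
      e.open_source.mem_nhds hpe] with x hx hxs
    by_cases hxe : e x = e p
    · rw [e.injOn hxs hpe hxe, hp0]
    · have h6 := h5 _ hx hxe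
      simpa [e.left_inv hxs] using h6
  obtain ⟨k, hk, h5⟩ := h4
  obtain ⟨A, hA⟩ := exists_coord_vec hE hk
  obtain ⟨φ, hφ, hsrc, hφx⟩ := exists_hchart (M := M) p A
  have hp : p ∈ φ.source := by rw [hsrc]; exact hpe
  have hφp : φ p = 0 := by rw [hφx]; simp
  refine ⟨φ, hφ, hp, hφp, fun h6 => h5 ?_⟩
  have hc : Tendsto (fun t : ℂ => ((0 : ℂ), t)) (𝓝 0) (𝓝 (0 : ℂ × ℂ)) := by
    have : Continuous fun t : ℂ => ((0 : ℂ), t) := by fun_prop
    exact this.tendsto' 0 0 rfl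
  have h7 : ∀ᶠ y in 𝓝 (0 : ℂ × ℂ), y ∈ φ.target :=
    φ.open_target.mem_nhds (hφp ▸ φ.map_source hp)
  have h8 : Tendsto (fun t : ℂ => e p + t • k) (𝓝 0) (𝓝 (e p)) := by
    have : Continuous fun t : ℂ => e p + t • k := by fun_prop
    exact this.tendsto' 0 _ (by simp)
  filter_upwards [h6, hc.eventually h7, h8.eventually (e.open_target.mem_nhds (e.map_source hpe))]
    with t ht ht2 ht3
  have h9 : φ.symm (0, t) = e.symm (e p + t • k) := by
    have hx : e.symm (e p + t • k) ∈ φ.source := by rw [hsrc]; exact e.map_target ht3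
    rw [← φ.left_inv hx, hφx]
    congr 1
    rw [← he, e.right_inv ht3, add_sub_cancel_left, map_smul, hA]
    simp
  rw [← h9]
  exact ht

/-- a compact set in which a property holds at isolated points only -/
theorem finite_of_isolated {α : Type*} [TopologicalSpace α] {K : Set α} (hK : IsCompact K)
    {P : α → Prop} (h : ∀ y ∈ K, ∀ᶠ x in 𝓝[≠] y, ¬ P x) : {y ∈ K | P y}.Finite := by
  by_contra hinf
  obtain ⟨x, hx, hacc⟩ := Set.Infinite.exists_accPt_of_subset_isCompact hinf hK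
    (sep_subset K P)
  rw [accPt_iff_frequently_nhdsNE] at hacc
  exact hacc ((h x hx).mono fun y hy hy2 => hy hy2.2)

/-- A bidisc: `s ≠ 0` on the sides. -/
structure Bidisc (E : Type*) [NormedAddCommGroup E] [NormedSpace ℂ E] {M : Type*}
    [TopologicalSpace M] [ChartedSpace E M] (s : M → ℂ) (p : M)
    (φ : OpenPartialHomeomorph M (ℂ × ℂ)) (R r₁ r₂ : ℝ) : Prop where
  hφ : HChart E φ
  hp : p ∈ φ.source
  hφp : φ p = 0
  h1 : 0 < r₁
  h2 : 0 < r₂
  h1R : r₁ < R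
  h2R : r₂ < R
  tgt : ball (0 : ℂ × ℂ) R ⊆ φ.target
  hol : DifferentiableOn ℂ (fun y => s (φ.symm y)) (ball 0 R)
  side : ∀ z w : ℂ, ‖z‖ ≤ r₁ → ‖w‖ = r₂ → s (φ.symm (z, w)) ≠ 0

theorem exists_bidisc [IsManifold 𝓘(ℂ, E) 1 M] (hE : Module.finrank ℂ E = 2) {s : M → ℂ} {p : M}
    (hs : HolNear E s p) (hne : ¬ ∀ᶠ x in 𝓝 p, s x = 0) {P : M → Prop} (hP : ∀ᶠ x in 𝓝 p, P x) :
    ∃ φ R r₁ r₂, Bidisc E s p φ R r₁ r₂ ∧ ∀ y ∈ ball (0 : ℂ × ℂ) R, P (φ.symm y) := by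
  obtain ⟨φ, hφ, hp, hφp, h0⟩ := exists_direction hE hs hne
  have h1 := hs.comp_symm hφ hp
  have h2 := (eventually_chart (φ := φ) hp).2 hP
  rw [hφp] at h1 h2
  have h3 : ∀ᶠ y in 𝓝 (0 : ℂ × ℂ), y ∈ φ.target :=
    φ.open_target.mem_nhds (hφp ▸ φ.map_source hp)
  obtain ⟨R, hR, h4⟩ := Metric.eventually_nhds_iff_ball.1 ((h1.and h2).and h3)
  have hol : DifferentiableOn ℂ (fun y => s (φ.symm y)) (ball 0 R) :=
    fun y hy => (h4 y hy).1.1.differentiableWithinAt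
  have hc : Continuous fun t : ℂ => ((0 : ℂ), t) := by fun_prop
  have h5 : AnalyticAt ℂ (fun t : ℂ => s (φ.symm (0, t))) 0 := by
    rw [Complex.analyticAt_iff_eventually_differentiableAt]
    filter_upwards [(hc.tendsto' 0 0 rfl).eventually h1] with t ht
    exact DifferentiableAt.comp (g := fun y => s (φ.symm y)) t ht (by fun_prop)
  have h6 := h5.eventually_eq_zero_or_eventually_ne_zero.resolve_left h0
  rw [eventually_nhdsWithin_iff] at h6
  obtain ⟨δ, hδ, h7⟩ := Metric.eventually_nhds_iff_ball.1 h6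
  set r₂ : ℝ := min (R / 2) (δ / 2) with hr₂
  have hr₂0 : 0 < r₂ := by positivity
  have hr₂R : r₂ < R := (min_le_left _ _).trans_lt (by linarith)
  have hr₂δ : r₂ < δ := (min_le_right _ _).trans_lt (by linarith)
  have h8 : ∀ᶠ z in 𝓝 (0 : ℂ), ∀ w ∈ sphere (0 : ℂ) r₂, s (φ.symm (z, w)) ≠ 0 := by
    refine (isCompact_sphere (0 : ℂ) r₂).eventually_forall_of_forall_eventually fun w hw => ?_
    rw [mem_sphere_zero_iff_norm] at hw
    have hm : ((0 : ℂ), w) ∈ ball (0 : ℂ × ℂ) R := by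
      rw [mem_ball_zero_iff, Prod.norm_def]
      exact max_lt (by simpa using hR) (by simpa [hw] using hr₂R)
    have hcont : ContinuousAt (fun y => s (φ.symm y)) (0, w) :=
      (hol.differentiableAt (isOpen_ball.mem_nhds hm)).continuousAt
    refine hcont.eventually_ne ?_
    refine h7 w ?_ ?_
    · rw [mem_ball_zero_iff, hw]; exact hr₂δ
    · rintro rfl
      rw [norm_zero] at hw
      linarith
  obtain ⟨ρ, hρ, h9⟩ := Metric.eventually_nhds_iff_ball.1 h8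
  set r₁ : ℝ := min (R / 2) (ρ / 2) with hr₁
  have hr₁0 : 0 < r₁ := by positivity
  have hr₁R : r₁ < R := (min_le_left _ _).trans_lt (by linarith)
  have hr₁ρ : r₁ < ρ := (min_le_right _ _).trans_lt (by linarith)
  refine ⟨φ, R, r₁, r₂, ⟨hφ, hp, hφp, hr₁0, hr₂0, hr₁R, hr₂R, fun y hy => (h4 y hy).2, hol, ?_⟩,
    fun y hy => (h4 y hy).1.2⟩
  intro z w hz hw
  refine h9 z ?_ w (by simpa using hw)
  rw [mem_ball_zero_iff]
  linarith

namespace Bidisc

variable {s : M → ℂ} {p : M} {φ : OpenPartialHomeomorph M (ℂ × ℂ)} {R r₁ r₂ : ℝ}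

theorem mem (B : Bidisc E s p φ R r₁ r₂) {z w : ℂ} (hz : ‖z‖ ≤ r₁) (hw : ‖w‖ ≤ r₂) :
    ((z, w) : ℂ × ℂ) ∈ ball (0 : ℂ × ℂ) R := by
  rw [mem_ball_zero_iff, Prod.norm_def]
  exact max_lt (hz.trans_lt B.h1R) (hw.trans_lt B.h2R)

/-- slices -/
theorem slice (B : Bidisc E s p φ R r₁ r₂) {z : ℂ} (hz : ‖z‖ ≤ r₁) :
    AnalyticOnNhd ℂ (fun w => s (φ.symm (z, w))) (ball 0 R) := by
  refine DifferentiableOn.analyticOnNhd (fun w hw => ?_) isOpen_ball
  rw [mem_ball_zero_iff] at hw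
  have hm : ((z, w) : ℂ × ℂ) ∈ ball (0 : ℂ × ℂ) R := by
    rw [mem_ball_zero_iff, Prod.norm_def]
    exact max_lt (hz.trans_lt B.h1R) hw
  have h3 := B.hol.differentiableAt (isOpen_ball.mem_nhds hm)
  exact (DifferentiableAt.comp (g := fun y => s (φ.symm y)) w h3 (by fun_prop)).differentiableWithinAt

/-- the zeros of a slice are isolated -/
theorem slice_isolated (B : Bidisc E s p φ R r₁ r₂) {z : ℂ} (hz : ‖z‖ ≤ r₁) {w₀ : ℂ}
    (hw₀ : w₀ ∈ ball (0 : ℂ) R) : ¬ ∃ᶠ w in 𝓝[≠] w₀, s (φ.symm (z, w)) = 0 := by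
  intro h
  have h1 := (B.slice hz).eqOn_zero_of_preconnected_of_frequently_eq_zero
    (convex_ball (0 : ℂ) R).isPreconnected hw₀ h
  have h2 : ((r₂ : ℝ) : ℂ) ∈ ball (0 : ℂ) R := by
    rw [mem_ball_zero_iff, Complex.norm_real, Real.norm_eq_abs, abs_of_pos B.h2]
    exact B.h2R
  refine B.side z (r₂ : ℂ) hz ?_ (h1 h2)
  rw [Complex.norm_real, Real.norm_eq_abs, abs_of_pos B.h2]

/-- **A curve in the zero set which meets the bidisc covers the base.** -/
theorem covers [IsManifold 𝓘(ℂ, E) 1 M] (hE : Module.finrank ℂ E = 2)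
    (B : Bidisc E s p φ R r₁ r₂) {C : Set M} (hC : IsCurve E C)
    (hCs : ∀ y ∈ ball (0 : ℂ × ℂ) R, φ.symm y ∈ C → s (φ.symm y) = 0)
    (hmeet : ∃ z w : ℂ, ‖z‖ < r₁ ∧ ‖w‖ < r₂ ∧ φ.symm (z, w) ∈ C) (z : ℂ) (hz : ‖z‖ < r₁) :
    ∃ w : ℂ, ‖w‖ < r₂ ∧ φ.symm (z, w) ∈ C := by
  set A : Set ℂ := {z | ‖z‖ < r₁ ∧ ∃ w : ℂ, ‖w‖ < r₂ ∧ φ.symm (z, w) ∈ C} with hA
  -- `A` is open
  have hAo : IsOpen A := by
    rw [isOpen_iff_mem_nhds]
    rintro z₀ ⟨hz₀, w₀, hw₀, hq₀⟩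
    have hm₀ := B.mem hz₀.le hw₀.le
    have ht₀ : ((z₀, w₀) : ℂ × ℂ) ∈ φ.target := B.tgt hm₀
    obtain ⟨l, hl⟩ := hC.2 _ hq₀
    -- neighbourhood on which things are fine
    have hO : ∀ᶠ x in 𝓝 (φ.symm (z₀, w₀)), x ∈ φ.source ∧ ‖(φ x).1‖ < r₁ ∧ ‖(φ x).2‖ < r₂ ∧
        (x ∈ C ↔ l x = 0) := by
      have hs0 : φ.symm (z₀, w₀) ∈ φ.source := φ.map_target ht₀
      have hcφ := (φ.continuousAt hs0).tendsto
      rw [φ.right_inv ht₀] at hcφ
      have hc1 : ContinuousAt (fun y : ℂ × ℂ => ‖y.1‖) (z₀, w₀) := by fun_prop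
      have hc2 : ContinuousAt (fun y : ℂ × ℂ => ‖y.2‖) (z₀, w₀) := by fun_prop
      filter_upwards [φ.open_source.mem_nhds hs0, hcφ.eventually (hc1.eventually_lt
        continuousAt_const hz₀), hcφ.eventually (hc2.eventually_lt continuousAt_const hw₀), hl.2]
        with x h1 h2 h3 h4
      exact ⟨h1, h2, h3, h4⟩
    obtain ⟨ψ, hψ, hψq, hψO, hψ0, hψl⟩ := exists_straight hE hl.1 hO
    have hc : Continuous fun t : ℂ => ((0 : ℂ), t) := by fun_prop
    have hψt : ∀ᶠ t in 𝓝 (0 : ℂ), ((0 : ℂ), t) ∈ ψ.target :=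
      (hc.tendsto' 0 0 rfl).eventually (ψ.open_target.mem_nhds (hψ0 ▸ ψ.map_source hψq))
    set c : ℂ → M := fun t => ψ.symm (0, t) with hcdef
    have hc0 : c 0 = φ.symm (z₀, w₀) := by
      change ψ.symm 0 = _
      rw [← hψ0, ψ.left_inv hψq]
    -- the points of the curve
    have hcC : ∀ᶠ t in 𝓝 (0 : ℂ), c t ∈ C ∧ c t ∈ φ.source ∧ ‖(φ (c t)).1‖ < r₁ ∧
        ‖(φ (c t)).2‖ < r₂ := by
      filter_upwards [hψt] with t ht
      have h1 := ψ.map_target ht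
      have h2 := hψO h1
      refine ⟨h2.2.2.2.2 ?_, h2.1, h2.2.1, h2.2.2.1⟩
      rw [← hψl _ h1, ψ.right_inv ht]
    have hcφ : ∀ᶠ t in 𝓝 (0 : ℂ), DifferentiableAt ℂ (fun t => φ (c t)) t := by
      filter_upwards [hψt, hcC] with t ht ht2
      rw [← mdifferentiableAt_iff_differentiableAt]
      have h1 : MDifferentiableAt 𝓘(ℂ, ℂ) 𝓘(ℂ, E) c t := by
        refine MDifferentiableAt.comp (I' := 𝓘(ℂ, ℂ × ℂ)) (g := ψ.symm)
          (f := fun t : ℂ => ((0 : ℂ), t)) t (hψ.mds _ ht) ?_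
        exact mdifferentiableAt_iff_differentiableAt.2 (by fun_prop)
      exact MDifferentiableAt.comp (I' := 𝓘(ℂ, E)) (g := φ) (f := c) t (B.hφ.md _ ht2.2.1) h1
    have hh : AnalyticAt ℂ (fun t => (φ (c t)).1) 0 := by
      rw [Complex.analyticAt_iff_eventually_differentiableAt]
      filter_upwards [hcφ] with t ht
      exact ht.fst
    have hφc0 : φ (c 0) = (z₀, w₀) := by rw [hc0, φ.right_inv ht₀]
    rcases hh.eventually_constant_or_nhds_le_map_nhds with h | h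
    · -- constant: impossible
      exfalso
      simp only [hφc0] at h
      have hcont : ContinuousAt (fun t => (φ (c t)).2) 0 :=
        (hcφ.self_of_nhds.snd).continuousAt
      have htend : Tendsto (fun t => (φ (c t)).2) (𝓝[≠] 0) (𝓝[≠] w₀) := by
        refine tendsto_nhdsWithin_iff.2 ⟨?_, ?_⟩
        · have := hcont.tendsto.mono_left (nhdsWithin_le_nhds (s := {(0 : ℂ)}ᶜ))
          simpa only [hφc0] using this
        · rw [eventually_nhdsWithin_iff]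
          filter_upwards [h, hcC, hψt] with t ht1 ht2 ht3 ht0 heq
          apply ht0
          have h3 : φ (c t) = φ (c 0) := by
            rw [hφc0]; exact Prod.ext ht1 heq
          have h4 : c t = c 0 := φ.injOn ht2.2.1 (hc0 ▸ φ.map_target ht₀) h3
          have h5 : ((0 : ℂ), t) = (0, 0) := by
            rw [← ψ.right_inv ht3]
            have : ((0 : ℂ), (0 : ℂ)) ∈ ψ.target := by
              have := hψ0 ▸ ψ.map_source hψq
              exact this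
            rw [← ψ.right_inv this]
            exact congrArg ψ h4
          exact (Prod.ext_iff.1 h5).2
      have hev : ∀ᶠ t in 𝓝[≠] (0 : ℂ), s (φ.symm (z₀, (φ (c t)).2)) = 0 := by
        refine Eventually.filter_mono nhdsWithin_le_nhds ?_
        filter_upwards [h, hcC] with t ht1 ht2
        have h3 : (z₀, (φ (c t)).2) = φ (c t) := Prod.ext ht1.symm rfl
        rw [h3]
        refine hCs _ ?_ ?_
        · exact B.mem (z := (φ (c t)).1) (w := (φ (c t)).2) ht2.2.2.1.le ht2.2.2.2.le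
        · rw [φ.left_inv ht2.2.1]; exact ht2.1
      have hw₀R : w₀ ∈ ball (0 : ℂ) R := by
        rw [mem_ball_zero_iff]; exact hw₀.trans B.h2R
      refine B.slice_isolated hz₀.le hw₀R ?_
      exact htend.frequently hev.frequently
    · -- open
      simp only [hφc0] at h
      refine h ?_
      rw [mem_map]
      filter_upwards [hcC] with t ht
      refine ⟨ht.2.2.1, (φ (c t)).2, ht.2.2.2, ?_⟩
      have h3 : ((φ (c t)).1, (φ (c t)).2) = φ (c t) := rfl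
      rw [h3, φ.left_inv ht.2.1]
      exact ht.1
  -- `A` is closed in the disc
  set K : Set (ℂ × ℂ) := {y | y ∈ closedBall (0 : ℂ) r₁ ×ˢ closedBall (0 : ℂ) r₂ ∧ φ.symm y ∈ C}
    with hK
  have hKsub : closedBall (0 : ℂ) r₁ ×ˢ closedBall (0 : ℂ) r₂ ⊆ ball (0 : ℂ × ℂ) R := by
    rintro ⟨z, w⟩ ⟨hz, hw⟩
    exact B.mem (by simpa using hz) (by simpa using hw)
  have hKc : IsCompact K := by
    have h1 : IsCompact (closedBall (0 : ℂ) r₁ ×ˢ closedBall (0 : ℂ) r₂) :=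
      (isCompact_closedBall _ _).prod (isCompact_closedBall _ _)
    have h2 : IsClosed K := by
      have h3 : ContinuousOn φ.symm (closedBall (0 : ℂ) r₁ ×ˢ closedBall (0 : ℂ) r₂) :=
        φ.continuousOn_symm.mono (hKsub.trans B.tgt)
      exact h3.preimage_isClosed_of_isClosed h1.isClosed hC.1
    exact h1.of_isClosed_subset h2 fun y hy => hy.1
  have hAK : ball (0 : ℂ) r₁ \ A = ball (0 : ℂ) r₁ ∩ (Prod.fst '' K)ᶜ := by
    ext z
    constructor
    · rintro ⟨hz, hzA⟩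
      refine ⟨hz, ?_⟩
      rintro ⟨⟨z', w⟩, ⟨⟨-, hw⟩, hyC⟩, rfl⟩
      apply hzA
      rw [mem_ball_zero_iff] at hz
      rw [mem_closedBall_zero_iff] at hw
      refine ⟨hz, w, lt_of_le_of_ne hw fun h => ?_, hyC⟩
      exact B.side z' w hz.le h (hCs _ (B.mem hz.le hw) hyC)
    · rintro ⟨hz, hzK⟩
      refine ⟨hz, ?_⟩
      rintro ⟨hz', w, hw, hyC⟩
      exact hzK ⟨(z, w), ⟨⟨by simpa using hz'.le, by simpa using hw.le⟩, hyC⟩, rfl⟩
  have hBo : IsOpen (ball (0 : ℂ) r₁ \ A) := by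
    rw [hAK]
    exact isOpen_ball.inter (hKc.image continuous_fst).isClosed.isOpen_compl
  have hsub := isPreconnected_iff_subset_of_disjoint.1 (convex_ball (0 : ℂ) r₁).isPreconnected
    A (ball (0 : ℂ) r₁ \ A) hAo hBo (fun x hx => by
      by_cases hxA : x ∈ A
      · exact Or.inl hxA
      · exact Or.inr ⟨hx, hxA⟩) (by
      rw [eq_empty_iff_forall_notMem]
      rintro x ⟨-, h1, h2⟩
      exact h2.2 h1)
  rcases hsub with h | h
  · exact (h (by simpa using hz)).2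
  · exfalso
    obtain ⟨z', w', hz', hw', h3⟩ := hmeet
    exact (h (by simpa using hz' : z' ∈ ball (0 : ℂ) r₁)).2 ⟨hz', w', hw', h3⟩

/-- **Local finiteness in a bidisc.** -/
theorem finite [T1Space M] [IsManifold 𝓘(ℂ, E) 1 M] (hE : Module.finrank ℂ E = 2)
    (B : Bidisc E s p φ R r₁ r₂) {Z : Set M}
    (hZ : ∀ y ∈ ball (0 : ℂ × ℂ) R, φ.symm y ∈ Z → s (φ.symm y) = 0) :
    {C : Set M | IsCurve E C ∧ IsPreconnected C ∧ C ⊆ Z ∧
      ∃ z w : ℂ, ‖z‖ < r₁ ∧ ‖w‖ < r₂ ∧ φ.symm (z, w) ∈ C}.Finite := by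
  by_contra hinf
  rw [← Set.Infinite] at hinf
  set F : ℕ → Set M := fun n => ((Set.Infinite.natEmbedding _ hinf n : _) : Set M) with hF
  have hFm : ∀ n, IsCurve E (F n) ∧ IsPreconnected (F n) ∧ F n ⊆ Z ∧
      ∃ z w : ℂ, ‖z‖ < r₁ ∧ ‖w‖ < r₂ ∧ φ.symm (z, w) ∈ F n := fun n =>
    (Set.Infinite.natEmbedding _ hinf n).2
  have hFi : Function.Injective F := fun a b h =>
    (Set.Infinite.natEmbedding _ hinf).injective (Subtype.ext h)
  have hKsub : closedBall (0 : ℂ) r₁ ×ˢ closedBall (0 : ℂ) r₂ ⊆ ball (0 : ℂ × ℂ) R := by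
    rintro ⟨z, w⟩ ⟨hz, hw⟩
    exact B.mem (by simpa using hz) (by simpa using hw)
  have hKc : IsCompact (closedBall (0 : ℂ) r₁ ×ˢ closedBall (0 : ℂ) r₂) :=
    (isCompact_closedBall _ _).prod (isCompact_closedBall _ _)
  -- intersections
  have hfin : ∀ n m, n ≠ m → {y ∈ closedBall (0 : ℂ) r₁ ×ˢ closedBall (0 : ℂ) r₂ |
      φ.symm y ∈ F n ∧ φ.symm y ∈ F m}.Finite := by
    intro n m hnm
    refine finite_of_isolated hKc fun y hy => ?_
    have hyt := B.tgt (hKsub hy)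
    have h1 := isolated_of_ne hE (hFm n).1 (hFm m).1 (hFm n).2.1 (hFm m).2.1
      (fun h => hnm (hFi h)) (φ.symm y)
    rw [eventually_nhdsWithin_iff] at h1 ⊢
    filter_upwards [(φ.continuousAt_symm hyt).tendsto.eventually h1,
      φ.open_target.mem_nhds hyt] with y' hy' hyt' hne
    refine hy' fun h => hne ?_
    exact φ.symm.injOn hyt' hyt h
  have hcount : (⋃ (n : ℕ) (m : ℕ) (_ : n ≠ m), Prod.fst ''
      {y ∈ closedBall (0 : ℂ) r₁ ×ˢ closedBall (0 : ℂ) r₂ |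
        φ.symm y ∈ F n ∧ φ.symm y ∈ F m}).Countable :=
    countable_iUnion fun n => countable_iUnion fun m => countable_iUnion fun h =>
      ((hfin n m h).image _).countable
  obtain ⟨z, hz, hznot⟩ : ∃ z ∈ ball (0 : ℂ) r₁, z ∉ (⋃ (n : ℕ) (m : ℕ) (_ : n ≠ m), Prod.fst ''
      {y ∈ closedBall (0 : ℂ) r₁ ×ˢ closedBall (0 : ℂ) r₂ |
        φ.symm y ∈ F n ∧ φ.symm y ∈ F m}) := by
    by_contra hcon
    push Not at hcon
    have h1 : (ball (0 : ℂ) r₁).Countable := hcount.mono hcon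
    have h2 := (hcount.dense_compl ℝ (E := ℂ))
    obtain ⟨x, hx1, hx2⟩ := h2.exists_mem_open isOpen_ball ⟨0, mem_ball_self B.h1⟩
    exact hx1 (hcon x hx2)
  rw [mem_ball_zero_iff] at hz
  have hw : ∀ n, ∃ w : ℂ, ‖w‖ < r₂ ∧ φ.symm (z, w) ∈ F n := fun n =>
    B.covers hE (hFm n).1 (fun y hy hyC => hZ y hy ((hFm n).2.2.1 hyC)) (hFm n).2.2.2 z hz
  choose w hwr hwF using hw
  have hwi : Function.Injective w := by
    intro n m hnm
    by_contra hne
    apply hznot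
    simp only [mem_iUnion]
    refine ⟨n, m, hne, (z, w n), ⟨⟨by simpa using hz.le, by simpa using (hwr n).le⟩, hwF n, ?_⟩,
      rfl⟩
    rw [hnm]; exact hwF m
  -- infinitely many zeros of the slice
  have h3 : (range w).Infinite := infinite_range_of_injective hwi
  obtain ⟨w₀, hw₀, hacc⟩ := h3.exists_accPt_of_subset_isCompact (isCompact_closedBall (0 : ℂ) r₂)
    (by rintro _ ⟨n, rfl⟩; simpa using (hwr n).le)
  rw [accPt_iff_frequently_nhdsNE] at hacc
  have hw₀R : w₀ ∈ ball (0 : ℂ) R := by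
    rw [mem_closedBall_zero_iff] at hw₀
    rw [mem_ball_zero_iff]; exact hw₀.trans_lt B.h2R
  refine B.slice_isolated hz.le hw₀R (hacc.mono ?_)
  rintro _ ⟨n, rfl⟩
  exact hZ _ (B.mem hz.le (hwr n).le) ((hFm n).2.2.1 (hwF n))

end Bidisc

/-- **(L4) Local finiteness.** -/
theorem exists_nhds_finite [T1Space M] [IsManifold 𝓘(ℂ, E) 1 M] (hE : Module.finrank ℂ E = 2)
    {s : M → ℂ} {p : M} (hs : HolNear E s p) (hne : ¬ ∀ᶠ x in 𝓝 p, s x = 0) {Z : Set M}
    (hZ : ∀ᶠ x in 𝓝 p, x ∈ Z → s x = 0) :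
    ∃ V ∈ 𝓝 p, {C : Set M | IsCurve E C ∧ IsPreconnected C ∧ C ⊆ Z ∧ (C ∩ V).Nonempty}.Finite := by
  obtain ⟨φ, R, r₁, r₂, B, hP⟩ := exists_bidisc hE hs hne hZ
  refine ⟨φ.source ∩ φ ⁻¹' (ball 0 r₁ ×ˢ ball 0 r₂), ?_, ?_⟩
  · refine inter_mem (φ.open_source.mem_nhds B.hp) ((φ.continuousAt B.hp).preimage_mem_nhds ?_)
    rw [B.hφp]
    exact prod_mem_nhds (ball_mem_nhds _ B.h1) (ball_mem_nhds _ B.h2)
  · refine (B.finite hE hP).subset ?_
    rintro C ⟨h1, h2, h3, x, hxC, hxs, hx⟩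
    refine ⟨h1, h2, h3, (φ x).1, (φ x).2, by simpa using hx.1, by simpa using hx.2, ?_⟩
    have : ((φ x).1, (φ x).2) = φ x := rfl
    rw [this, φ.left_inv hxs]
    exact hxC

end Vale.Agent.P267.H62
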