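import Vale.Agent.P267.H62.Loc
import Vale.Agent.P267.H62.Defs

/-! P267, package D-LOCFIN (helper62): straightening of coordinate functions. -/

open Set Filter Topology Metric
open scoped Manifold ContDiff

namespace Vale.Agent.P267.H62

section linear

variable {E : Type*} [NormedAddCommGroup E] [NormedSpace ℂ E]

/-- coordinates adapted to a functional `a ≠ 0` and a vector `k ≠ 0` with `a k = 0` -/
theorem exists_coord (hE : Module.finrank ℂ E = 2) (a : E →L[ℂ] ℂ) (ha : a ≠ 0) {k : E}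
    (hk : k ≠ 0) (hak : a k = 0) :
    ∃ A : E ≃L[ℂ] ℂ × ℂ, (∀ x, (A x).1 = a x) ∧ A k = (0, 1) := by
  have : FiniteDimensional ℂ E := Module.finite_of_finrank_pos (by rw [hE]; norm_num)
  obtain ⟨b, hb⟩ := SeparatingDual.exists_eq_one (R := ℂ) hk
  let L : E →ₗ[ℂ] ℂ × ℂ := (a.prod b).toLinearMap
  have hinj : Function.Injective L := by
    rw [← LinearMap.ker_eq_bot, LinearMap.ker_eq_bot']
    intro x hx
    have h1 : a x = 0 := (Prod.ext_iff.1 hx).1
    have h2 : b x = 0 := (Prod.ext_iff.1 hx).2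
    by_contra hx0
    -- `x` and `k` are in the kernel of `a`
    have hker : Module.finrank ℂ (LinearMap.ker a.toLinearMap) = 1 := by
      have h3 := LinearMap.finrank_range_add_finrank_ker a.toLinearMap
      have h4 : Module.finrank ℂ (LinearMap.range a.toLinearMap) = 1 := by
        have : LinearMap.range a.toLinearMap = ⊤ := by
          rw [LinearMap.range_eq_top]
          apply LinearMap.surjective
          intro h
          exact ha (by ext y; exact DFunLike.congr_fun h y)
        rw [this, finrank_top, Module.finrank_self]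
      omega
    have h5 := (finrank_eq_one_iff_of_nonzero' (⟨k, hak⟩ : LinearMap.ker a.toLinearMap)
      (fun h => hk (congrArg Subtype.val h))).1 hker ⟨x, h1⟩
    obtain ⟨c, hc⟩ := h5
    have h6 : c • k = x := congrArg Subtype.val hc
    rw [← h6, map_smul, hb, smul_eq_mul, mul_one] at h2
    rw [h2, zero_smul] at h6
    exact hx0 h6.symm
  have hdim : Module.finrank ℂ E = Module.finrank ℂ (ℂ × ℂ) := by
    rw [hE, Module.finrank_prod, Module.finrank_self]
  let A : E ≃ₗ[ℂ] ℂ × ℂ := LinearEquiv.ofInjectiveOfFinrankEq L hinj hdim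
  refine ⟨A.toContinuousLinearEquiv, fun x => rfl, ?_⟩
  change (a k, b k) = (0, 1)
  rw [hak, hb]

/-- coordinates adapted to a functional `a ≠ 0` -/
theorem exists_coord' (hE : Module.finrank ℂ E = 2) (a : E →L[ℂ] ℂ) (ha : a ≠ 0) :
    ∃ A : E ≃L[ℂ] ℂ × ℂ, ∀ x, (A x).1 = a x := by
  have : FiniteDimensional ℂ E := Module.finite_of_finrank_pos (by rw [hE]; norm_num)
  have : ∃ k : E, k ≠ 0 ∧ a k = 0 := by
    by_contra h
    push Not at h
    have hinj : Function.Injective a.toLinearMap := by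
      rw [← LinearMap.ker_eq_bot, LinearMap.ker_eq_bot']
      intro x hx
      by_contra hx0
      exact h x hx0 hx
    have := LinearMap.finrank_le_finrank_of_injective hinj
    rw [hE, Module.finrank_self] at this
    omega
  obtain ⟨k, hk, hak⟩ := this
  obtain ⟨A, hA, -⟩ := exists_coord hE a ha hk hak
  exact ⟨A, hA⟩

/-- coordinates adapted to a vector `k ≠ 0` -/
theorem exists_coord_vec (hE : Module.finrank ℂ E = 2) {k : E} (hk : k ≠ 0) :
    ∃ A : E ≃L[ℂ] ℂ × ℂ, A k = (0, 1) := by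
  have : FiniteDimensional ℂ E := Module.finite_of_finrank_pos (by rw [hE]; norm_num)
  have : ∃ a : E →L[ℂ] ℂ, a ≠ 0 ∧ a k = 0 := by
    obtain ⟨v, hv⟩ : ∃ v : E, v ∉ Submodule.span ℂ {k} := by
      by_contra h
      push Not at h
      have h1 : Submodule.span ℂ {k} = ⊤ := Submodule.eq_top_iff'.2 h
      have h2 := finrank_span_le_card (R := ℂ) ({k} : Set E)
      rw [h1, finrank_top, hE] at h2
      simp at h2
    obtain ⟨f, hf1, hf2⟩ := Submodule.exists_le_ker_of_notMem hv
    refine ⟨LinearMap.toContinuousLinearMap f, fun h => hf1 ?_, ?_⟩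
    · simpa using DFunLike.congr_fun h v
    · exact hf2 (Submodule.mem_span_singleton_self k)
  obtain ⟨a, ha, hak⟩ := this
  obtain ⟨A, -, hA⟩ := exists_coord hE a ha hk hak
  exact ⟨A, hA⟩

end linear

section inverse

variable {E F : Type*} [NormedAddCommGroup E] [NormedSpace ℂ E] [FiniteDimensional ℂ E]
  [NormedAddCommGroup F] [NormedSpace ℂ F] [FiniteDimensional ℂ F]

/-- holomorphic inverse function theorem -/
theorem exists_homeo {Φ : E → F} {y₀ : E} {U : Set E} (hU : IsOpen U) (hy : y₀ ∈ U)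
    (hΦ : DifferentiableOn ℂ Φ U) {A : E ≃L[ℂ] F} (hA : HasFDerivAt Φ (A : E →L[ℂ] F) y₀) :
    ∃ φ : OpenPartialHomeomorph E F, y₀ ∈ φ.source ∧ φ.source ⊆ U ∧ (∀ y, φ y = Φ y) ∧
      DifferentiableOn ℂ φ φ.source ∧ DifferentiableOn ℂ φ.symm φ.target := by
  have : CompleteSpace E := FiniteDimensional.complete ℂ E
  have : CompleteSpace F := FiniteDimensional.complete ℂ F
  have hc : ContDiffAt ℂ 1 Φ y₀ :=
    ((P268.contDiffOn_of_differentiableOn hU hΦ 1) y₀ hy).contDiffAt (hU.mem_nhds hy)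
  let φ₀ := hc.toOpenPartialHomeomorph Φ hA one_ne_zero
  have h1 : ContDiffAt ℂ 1 φ₀.symm (Φ y₀) := hc.to_localInverse hA one_ne_zero
  have h2 : ∀ᶠ z in 𝓝 (Φ y₀), DifferentiableAt ℂ φ₀.symm z := by
    filter_upwards [h1.eventually (by simp)] with z hz
    exact hz.differentiableAt one_ne_zero
  obtain ⟨V, hV, hVo, hVm⟩ := _root_.eventually_nhds_iff.1 h2
  have hopen : IsOpen (U ∩ (φ₀.source ∩ φ₀ ⁻¹' V)) :=
    hU.inter (φ₀.continuousOn.isOpen_inter_preimage φ₀.open_source hVo)
  let φ := φ₀.restrOpen (U ∩ (φ₀.source ∩ φ₀ ⁻¹' V)) hopen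
  have hsrc : φ.source = φ₀.source ∩ (U ∩ (φ₀.source ∩ φ₀ ⁻¹' V)) :=
    OpenPartialHomeomorph.restrOpen_source _ _ _
  refine ⟨φ, ?_, ?_, fun y => rfl, ?_, ?_⟩
  · rw [hsrc]
    have : y₀ ∈ φ₀.source := hc.mem_toOpenPartialHomeomorph_source hA one_ne_zero
    exact ⟨this, hy, this, hVm⟩
  · rw [hsrc]
    exact fun x hx => hx.2.1
  · refine (hΦ.mono ?_)
    rw [hsrc]
    exact fun x hx => hx.2.1
  · intro z hz
    have h3 : φ.symm z ∈ φ.source := φ.map_target hz
    have h4 : z ∈ V := by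
      rw [hsrc] at h3
      have h5 := h3.2.2.2
      have h6 : φ (φ.symm z) = z := φ.right_inv hz
      change φ (φ.symm z) ∈ V at h5
      rwa [h6] at h5
    exact (hV z h4).differentiableWithinAt

end inverse

end Vale.Agent.P267.H62
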