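import Vale.Agent.P267.H62.Str

/-! P267, package D-LOCFIN (helper62): holomorphic charts with values in `ℂ × ℂ`. -/

open Set Filter Topology Metric
open scoped Manifold ContDiff

namespace Vale.Agent.P267.H62

variable {E : Type*} [NormedAddCommGroup E] [NormedSpace ℂ E]
  {M : Type*} [TopologicalSpace M] [ChartedSpace E M]

/-- a biholomorphic map from an open set of `M` to an open set of `ℂ × ℂ` -/
structure HChart (E : Type*) [NormedAddCommGroup E] [NormedSpace ℂ E] {M : Type*}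
    [TopologicalSpace M] [ChartedSpace E M] (φ : OpenPartialHomeomorph M (ℂ × ℂ)) : Prop where
  md : ∀ x ∈ φ.source, MDifferentiableAt 𝓘(ℂ, E) 𝓘(ℂ, ℂ × ℂ) φ x
  mds : ∀ y ∈ φ.target, MDifferentiableAt 𝓘(ℂ, ℂ × ℂ) 𝓘(ℂ, E) φ.symm y

/-- `s` read in a chart -/
theorem HolNear.comp_symm {φ : OpenPartialHomeomorph M (ℂ × ℂ)} (hφ : HChart E φ) {s : M → ℂ}
    {p : M} (hp : p ∈ φ.source) (hs : HolNear E s p) :
    ∀ᶠ y in 𝓝 (φ p), DifferentiableAt ℂ (fun y => s (φ.symm y)) y := by
  have h1 : Tendsto φ.symm (𝓝 (φ p)) (𝓝 p) := by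
    have := (φ.continuousAt_symm (φ.map_source hp)).tendsto
    rwa [φ.left_inv hp] at this
  filter_upwards [h1.eventually hs, φ.open_target.mem_nhds (φ.map_source hp)] with y hy hyt
  rw [← mdifferentiableAt_iff_differentiableAt]
  exact MDifferentiableAt.comp (I' := 𝓘(ℂ, E)) y hy (hφ.mds y hyt)

theorem HolNear.of_comp {φ : OpenPartialHomeomorph M (ℂ × ℂ)} (hφ : HChart E φ) {g : ℂ × ℂ → ℂ}
    {p : M} (hp : p ∈ φ.source) (hg : ∀ᶠ y in 𝓝 (φ p), DifferentiableAt ℂ g y) :
    HolNear E (fun x => g (φ x)) p := by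
  have h1 := (φ.continuousAt hp).tendsto
  filter_upwards [h1.eventually hg, φ.open_source.mem_nhds hp] with x hx hxs
  exact MDifferentiableAt.comp (I' := 𝓘(ℂ, ℂ × ℂ)) x
    (mdifferentiableAt_iff_differentiableAt.2 hx) (hφ.md x hxs)

theorem HolNear.self {s : M → ℂ} {p : M} (h : HolNear E s p) :
    MDifferentiableAt 𝓘(ℂ, E) 𝓘(ℂ, ℂ) s p := h.self_of_nhds

theorem HolNear.nearby {s : M → ℂ} {p : M} (h : HolNear E s p) : ∀ᶠ q in 𝓝 p, HolNear E s q :=
  eventually_eventually_nhds.2 h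

theorem HolNear.congr {s s' : M → ℂ} {p : M} (h : HolNear E s p) (hs : ∀ᶠ x in 𝓝 p, s' x = s x) :
    HolNear E s' p := by
  filter_upwards [h, eventually_eventually_nhds.2 hs] with x h1 h2
  exact h1.congr_of_eventuallyEq h2

theorem HolNear.mul {s s' : M → ℂ} {p : M} (h : HolNear E s p) (h' : HolNear E s' p) :
    HolNear E (fun x => s x * s' x) p := by
  filter_upwards [h, h'] with x h1 h2
  exact h1.mul h2

theorem HolNear.prod {ι : Type*} {S : Finset ι} {s : ι → M → ℂ} {p : M}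
    (h : ∀ i ∈ S, HolNear E (s i) p) : HolNear E (fun x => ∏ i ∈ S, s i x) p := by
  classical
  induction S using Finset.induction_on with
  | empty =>
    simp only [Finset.prod_empty]
    exact Eventually.of_forall fun x => mdifferentiableAt_const
  | insert i S hi ih =>
    simp only [Finset.prod_insert hi]
    exact (h i (Finset.mem_insert_self _ _)).mul
      (ih fun j hj => h j (Finset.mem_insert_of_mem hj))

theorem HolNear.pow {s : M → ℂ} {p : M} (h : HolNear E s p) (n : ℕ) :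
    HolNear E (fun x => s x ^ n) p := by
  induction n with
  | zero => simp only [pow_zero]; exact Eventually.of_forall fun x => mdifferentiableAt_const
  | succ n ih => simp only [pow_succ]; exact ih.mul h

theorem HolNear.continuousAt {s : M → ℂ} {p : M} (h : HolNear E s p) : ContinuousAt s p :=
  h.self.continuousAt

/-- **Straightening of a coordinate function.** -/
theorem exists_straight [IsManifold 𝓘(ℂ, E) 1 M] (hE : Module.finrank ℂ E = 2) {l : M → ℂ} {p : M}
    (hl : IsCoord E l p) {O : Set M} (hO : O ∈ 𝓝 p) :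
    ∃ φ : OpenPartialHomeomorph M (ℂ × ℂ), HChart E φ ∧ p ∈ φ.source ∧ φ.source ⊆ O ∧ φ p = 0 ∧
      ∀ x ∈ φ.source, (φ x).1 = l x := by
  have : FiniteDimensional ℂ E := Module.finite_of_finrank_pos (by rw [hE]; norm_num)
  set e := chartAt E p with he
  have hpe : p ∈ e.source := mem_chart_source E p
  have hmd := mdifferentiable_chart (I := 𝓘(ℂ, E)) (M := M) p
  obtain ⟨V, hV, hVo, hVp⟩ := _root_.eventually_nhds_iff.1 (hl.1.and hO)
  set f : E → ℂ := fun y => l (e.symm y) with hf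
  set U : Set E := e.target ∩ e.symm ⁻¹' V with hU
  have hUo : IsOpen U := e.symm.continuousOn.isOpen_inter_preimage e.open_target hVo
  have hpU : e p ∈ U := ⟨e.map_source hpe, by rw [mem_preimage, e.left_inv hpe]; exact hVp⟩
  have hfd : ∀ y ∈ U, DifferentiableAt ℂ f y := by
    intro y hy
    rw [← mdifferentiableAt_iff_differentiableAt]
    exact MDifferentiableAt.comp (I' := 𝓘(ℂ, E)) y (hV _ hy.2).1 (hmd.mdifferentiableAt_symm hy.1)
  -- the derivative is not zero
  have hne : fderiv ℂ f (e p) ≠ 0 := by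
    intro h0
    apply hl.2.2
    have h1' : HasFDerivAt f (0 : E →L[ℂ] ℂ) (e p) := by
      rw [← h0]; exact (hfd _ hpU).hasFDerivAt
    have h1 : HasMFDerivAt 𝓘(ℂ, E) 𝓘(ℂ, ℂ) f (e p) (0 : E →L[ℂ] ℂ) := h1'.hasMFDerivAt
    have h2 : HasMFDerivAt 𝓘(ℂ, E) 𝓘(ℂ, E) e p (mfderiv 𝓘(ℂ, E) 𝓘(ℂ, E) e p) :=
      (hmd.mdifferentiableAt hpe).hasMFDerivAt
    have h3 := HasMFDerivAt.comp p h1 h2
    have h4 : l =ᶠ[𝓝 p] f ∘ e := by
      filter_upwards [e.open_source.mem_nhds hpe] with x hx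
      simp [hf, e.left_inv hx]
    have h5 := h3.congr_of_eventuallyEq h4
    rw [h5.mfderiv]
    exact ContinuousLinearMap.zero_comp _
  obtain ⟨A, hA⟩ := exists_coord' hE _ hne
  set Φ : E → ℂ × ℂ := fun y => (f y, (A (y - e p)).2) with hΦ
  have hΦd : DifferentiableOn ℂ Φ U := by
    intro y hy
    exact ((hfd y hy).prodMk (by fun_prop)).differentiableWithinAt
  have hΦ' : HasFDerivAt Φ (A : E →L[ℂ] ℂ × ℂ) (e p) := by
    have h1 : HasFDerivAt f (fderiv ℂ f (e p)) (e p) := (hfd _ hpU).hasFDerivAt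
    have h2 : HasFDerivAt (fun y => (A (y - e p)).2)
        ((ContinuousLinearMap.snd ℂ ℂ ℂ).comp (A : E →L[ℂ] ℂ × ℂ)) (e p) := by
      have h3 : HasFDerivAt (fun y : E => y - e p) (ContinuousLinearMap.id ℂ E) (e p) :=
        (hasFDerivAt_id (e p)).sub_const (e p)
      have h4 := ((ContinuousLinearMap.snd ℂ ℂ ℂ).comp (A : E →L[ℂ] ℂ × ℂ)).hasFDerivAt (x := e p - e p)
      exact HasFDerivAt.comp (g := fun z => (A z).2) (f := fun y => y - e p) (e p) h4 h3
    have h5 := h1.prodMk h2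
    convert h5 using 1
    ext x
    · exact hA x
    · rfl
  obtain ⟨ψ, hψp, hψU, hψΦ, hψd, hψs⟩ := exists_homeo hUo hpU hΦd hΦ'
  refine ⟨e.trans ψ, ⟨?_, ?_⟩, ?_, ?_, ?_, ?_⟩
  · intro x hx
    rw [OpenPartialHomeomorph.trans_source] at hx
    have h1 : DifferentiableAt ℂ ψ (e x) := hψd.differentiableAt (ψ.open_source.mem_nhds hx.2)
    exact MDifferentiableAt.comp (I' := 𝓘(ℂ, E)) (g := ψ) (f := e) x
      (mdifferentiableAt_iff_differentiableAt.2 h1) (hmd.mdifferentiableAt hx.1)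
  · intro y hy
    rw [OpenPartialHomeomorph.trans_target] at hy
    have h1 : DifferentiableAt ℂ ψ.symm y := hψs.differentiableAt (ψ.open_target.mem_nhds hy.1)
    exact MDifferentiableAt.comp (I' := 𝓘(ℂ, E)) (g := e.symm) (f := ψ.symm) y
      (hmd.mdifferentiableAt_symm hy.2) (mdifferentiableAt_iff_differentiableAt.2 h1)
  · rw [OpenPartialHomeomorph.trans_source]
    exact ⟨hpe, hψp⟩
  · rw [OpenPartialHomeomorph.trans_source]
    intro x hx
    have h1 := (hψU hx.2).2
    rw [mem_preimage, e.left_inv hx.1] at h1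
    exact (hV x h1).2
  · change ψ (e p) = 0
    rw [hψΦ]
    simp only [hΦ, hf, e.left_inv hpe, hl.2.1, sub_self, map_zero, Prod.snd_zero]
    rfl
  · intro x hx
    rw [OpenPartialHomeomorph.trans_source] at hx
    change (ψ (e x)).1 = l x
    rw [hψΦ]
    simp only [hΦ, hf, e.left_inv hx.1]

end Vale.Agent.P267.H62
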